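import Crest.Agent.H1Lip.Pd

/-! The ambient Banach space and the embedding of `M`. -/

set_option autoImplicit false

open Set Filter Metric Topology
open scoped ZeroAtInfty ENNReal

noncomputable section

namespace Crest.Agent.H1Lip

/-- Indices of cells. -/
def I : Type := Σ k : ℤ, (S (mL k) → ℤ)

instance : Countable I := inferInstanceAs (Countable (Σ k : ℤ, (S (mL k) → ℤ)))

def cell (j : ℕ) (i : I) : Cell := ⟨j, i.1, rep (mL i.1) (Rk i.1) i.2⟩

lemma cell_valid (j : ℕ) (i : I) : (cell j i).Valid := ⟨i.2, rfl⟩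

def Th (j : ℕ) (p : I × I) (x : M) : ℝ :=
  1 - (1 - theta 0 (cell j p.1) x) * (1 - theta 0 (cell j p.2) x)

lemma Th_nonneg (j p x) : 0 ≤ Th j p x := sub_nonneg.2 (mul_le_one₀
  (by linarith [theta_nonneg 0 (cell j p.1) x]) (by linarith [theta_le_one 0 (cell j p.2) x])
  (by linarith [theta_nonneg 0 (cell j p.2) x]))

lemma Th_le_one (j p x) : Th j p x ≤ 1 := sub_le_self _ (mul_nonneg
  (by linarith [theta_le_one 0 (cell j p.1) x]) (by linarith [theta_le_one 0 (cell j p.2) x]))

lemma Th_sharp (j p) {x y : M} (h : x.σ j ≤ y.σ j) :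
    x.σ j * |Th j p x - Th j p y| ≤ 4 * e1 * dist x y := by
  have h1 := abs_mul_sub_mul (a := 1 - theta 0 (cell j p.1) x) (a' := 1 - theta 0 (cell j p.1) y)
    (b := 1 - theta 0 (cell j p.2) x) (b' := 1 - theta 0 (cell j p.2) y)
    (by linarith [theta_le_one 0 (cell j p.2) y]) (by linarith [theta_nonneg 0 (cell j p.2) y])
  have h2 := theta_sharp 0 (cell j p.1) h
  have h3 := theta_sharp 0 (cell j p.2) h
  rw [Nat.cast_zero, s_zero] at h2 h3
  rw [sub_sub_sub_cancel_left, sub_sub_sub_cancel_left, abs_sub_comm (theta _ _ y),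
    abs_sub_comm (theta _ _ y), abs_of_nonneg (sub_nonneg.2 (theta_le_one 0 (cell j p.1) x))] at h1
  have h4 := mul_le_of_le_one_left (abs_nonneg (theta 0 (cell j p.2) x - theta 0 (cell j p.2) y))
    (show 1 - theta 0 (cell j p.1) x ≤ 1 by linarith [theta_nonneg 0 (cell j p.1) x])
  have h5 := mul_le_mul_of_nonneg_left (h1.trans (add_le_add h4 le_rfl)) (x.σ_nonneg j)
  rw [Th, Th, sub_sub_sub_cancel_left, abs_sub_comm]
  change x.σ j * _ ≤ _ at h2 h3
  linarith

def ph (j : ℕ) (p : I × I) (x : M) : H := Th j p x • x.u j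

lemma norm_ph_le (j p x) : ‖ph j p x‖ ≤ ‖x.u j‖ := by
  rw [ph, norm_smul, Real.norm_of_nonneg (Th_nonneg _ _ _)]
  exact mul_le_of_le_one_left (norm_nonneg _) (Th_le_one _ _ _)

lemma ph_lip (j p) (x y : M) : ‖ph j p x - ph j p y‖ ≤ (1 + 1 / 1000) * dist x y := by
  wlog h : x.σ j ≤ y.σ j generalizing x y
  · rw [norm_sub_rev, dist_comm]; exact this y x (not_le.1 h).le
  have h1 := Th_sharp j p h
  have e : ph j p x - ph j p y = (Th j p x - Th j p y) • x.u j + Th j p y • (x.u j - y.u j) := by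
    rw [ph, ph, sub_smul, smul_sub]; abel
  rw [e]
  refine (norm_add_le _ _).trans ?_
  rw [norm_smul, norm_smul, Real.norm_of_nonneg (Th_nonneg _ _ _), Real.norm_eq_abs]
  have h2 := mul_le_mul_of_nonneg_left (x.norm_u_le j) (abs_nonneg (Th j p x - Th j p y))
  have h3 := mul_le_of_le_one_left (norm_nonneg (x.u j - y.u j)) (Th_le_one j p y)
  have h4 := x.u_sub_le y j
  have h5 : 4 * e1 * dist x y ≤ 1 / 1000 * dist x y :=
    mul_le_mul_of_nonneg_right (by rw [e1_eq]; norm_num) dist_nonneg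
  linarith

abbrev L : Type := lp (fun _ : I × I => H) ∞
def F (k : ℕ) : Type := {f : M → ℝ // Cmb k (4 ^ k) f ∧ Lip f 1}
abbrev LF (k : ℕ) : Type := lp (fun _ : F k => ℝ) ∞
abbrev B2 : Type := lp LF 1
abbrev B : Type := C₀(ℕ, L) × B2

def phL (j : ℕ) (x : M) : L :=
  ⟨fun p => ph j p x, memℓp_infty ⟨‖x.u j‖, by rintro _ ⟨p, rfl⟩; exact norm_ph_le j p x⟩⟩

lemma norm_phL_le (j x) : ‖phL j x‖ ≤ ‖x.u j‖ :=
  lp.norm_le_of_forall_le (norm_nonneg _) fun p => norm_ph_le j p x

def wk (k : ℕ) : ℝ := (1 / 2) ^ (k + 1)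
lemma wk_pos (k) : 0 < wk k := by unfold wk; positivity
lemma hasSum_wk : HasSum wk 1 := by
  have := hasSum_geometric_two.mul_left (1 / 2)
  rw [show (1 / 2 * 2 : ℝ) = 1 by norm_num] at this
  exact this.congr_fun fun k => by unfold wk; ring

lemma psi_le (k : ℕ) (f : F k) (x y : M) : ‖wk k * (f.1 x - f.1 y)‖ ≤ wk k * dist x y := by
  rw [norm_mul, Real.norm_of_nonneg (wk_pos k).le, Real.norm_eq_abs]
  exact mul_le_mul_of_nonneg_left (by simpa using f.2.2 x y) (wk_pos k).le

def psK (k : ℕ) (x : M) : LF k :=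
  ⟨fun f => wk k * (f.1 x - f.1 M.zero),
    memℓp_infty ⟨wk k * dist x M.zero, by rintro _ ⟨f, rfl⟩; exact psi_le k f x _⟩⟩

lemma psK_lip (k) (x y : M) : ‖psK k x - psK k y‖ ≤ wk k * dist x y :=
  lp.norm_le_of_forall_le (mul_nonneg (wk_pos k).le dist_nonneg) fun f => by
    refine le_trans (le_of_eq (congrArg norm ?_)) (psi_le k f x y)
    change wk k * (f.1 x - f.1 M.zero) - wk k * (f.1 y - f.1 M.zero) = _
    ring

lemma norm_psK_le (k) (x : M) : ‖psK k x‖ ≤ wk k * dist x M.zero :=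
  lp.norm_le_of_forall_le (mul_nonneg (wk_pos k).le dist_nonneg) fun f => psi_le k f x _

def ps (x : M) : B2 :=
  ⟨fun k => psK k x, memℓp_gen (by
    simpa using Summable.of_nonneg_of_le (fun _ => norm_nonneg _) (fun k => norm_psK_le k x)
      (hasSum_wk.summable.mul_right _))⟩

/-- The embedding. -/
def dl (x : M) : B :=
  (mk0 (fun j => phL j x) (squeeze_zero_norm (fun j => norm_phL_le j x)
    (by simpa using x.u_tendsto.norm)), ps x)

lemma dl_fst (x : M) (j p) : (dl x).1 j p = ph j p x := rfl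
lemma dl_snd (x : M) (k) (f : F k) : (dl x).2 k f = wk k * (f.1 x - f.1 M.zero) := rfl

lemma dl_lip (x y : M) : ‖dl x - dl y‖ ≤ (1 + 1 / 1000) * dist x y := by
  have h0 : (0 : ℝ) ≤ (1 + 1 / 1000) * dist x y := by positivity
  refine norm_prod_le_iff.2 ⟨c0_norm_le h0 fun j => lp.norm_le_of_forall_le h0 fun p =>
    ph_lip j p x y, lp.norm_le_of_tsum_le (by norm_num) h0 ?_⟩
  simp only [ENNReal.toReal_one, Real.rpow_one]
  have h1 := hasSum_wk.mul_right (dist x y)
  refine le_trans (Summable.tsum_le_tsum (fun k => psK_lip k x y) ?_ h1.summable) ?_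
  · exact Summable.of_nonneg_of_le (fun _ => norm_nonneg _) (fun k => psK_lip k x y) h1.summable
  · rw [h1.tsum_eq]; nlinarith [dist_nonneg (x := x) (y := y)]

lemma dl_continuous : Continuous dl :=
  (LipschitzWith.of_dist_le' (K := 1 + 1 / 1000) fun x y => by
    rw [dist_eq_norm]; exact dl_lip x y).continuous

instance : TopologicalSpace.SeparableSpace H := by
  have h1 : TopologicalSpace.IsSeparable (⋃ i, range (lp.single (E := fun _ : ℕ => ℝ) 2 i)) :=
    .iUnion fun i => TopologicalSpace.isSeparable_range (lp.isometry_single i).continuous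
  rw [← TopologicalSpace.isSeparable_univ_iff]
  refine (h1.span (R := ℝ)).closure.mono fun v _ => mem_closure_of_tendsto (tendsto_trunc v)
    (Eventually.of_forall fun m => Submodule.sum_mem _ fun q _ =>
      Submodule.subset_span (mem_iUnion.2 ⟨q, _, rfl⟩))

/-- A single coordinate vector of `c₀`. -/
def sg {β : Type} [NormedAddCommGroup β] (j : ℕ) (v : β) : C₀(ℕ, β) :=
  mk0 (fun l => if l = j then v else 0) (tendsto_const_nhds.congr' (by
    filter_upwards [eventually_gt_atTop j] with l hl; rw [if_neg hl.ne']))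

lemma sg_apply {β : Type} [NormedAddCommGroup β] (j : ℕ) (v : β) (l : ℕ) :
    sg j v l = if l = j then v else 0 := rfl

lemma c0_sum_apply {β : Type} [NormedAddCommGroup β] {ι : Type} (A : Finset ι) (f : ι → C₀(ℕ, β))
    (l : ℕ) : (∑ i ∈ A, f i) l = ∑ i ∈ A, f i l := by
  classical
  induction A using Finset.induction_on with
  | empty => rfl
  | insert a A ha ih => rw [Finset.sum_insert ha, Finset.sum_insert ha, ← ih]; rfl

instance sepC0 {β : Type} [NormedAddCommGroup β] [NormedSpace ℝ β]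
    [TopologicalSpace.SeparableSpace β] : TopologicalSpace.SeparableSpace C₀(ℕ, β) := by
  have h1 : TopologicalSpace.IsSeparable (⋃ j, range (sg (β := β) j)) :=
    .iUnion fun j => TopologicalSpace.isSeparable_range
      (LipschitzWith.of_dist_le' (K := 1) fun v w => by
        rw [dist_eq_norm, one_mul]
        refine c0_norm_le dist_nonneg fun l => ?_
        change ‖sg j v l - sg j w l‖ ≤ _
        simp only [sg_apply]; split_ifs <;> simp [dist_eq_norm]).continuous
  rw [← TopologicalSpace.isSeparable_univ_iff]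
  refine (h1.span (R := ℝ)).closure.mono fun v _ => Metric.mem_closure_iff.2 fun ε hε => ?_
  obtain ⟨n, hn⟩ := eventually_atTop.1 (Metric.tendsto_nhds.1 (c0_tendsto v) _ (half_pos hε))
  refine ⟨∑ j ∈ Finset.range n, sg j (v j), Submodule.sum_mem _ fun q _ =>
      Submodule.subset_span (mem_iUnion.2 ⟨q, _, rfl⟩), ?_⟩
  rw [dist_eq_norm]
  refine (c0_norm_le (half_pos hε).le fun l => ?_).trans_lt (half_lt_self hε)
  change ‖v l - (∑ j ∈ Finset.range n, sg j (v j)) l‖ ≤ _
  simp only [c0_sum_apply, sg_apply, Finset.sum_ite_eq, Finset.mem_range]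
  split_ifs with h
  · simpa using (half_pos hε).le
  · simpa using (hn l (not_lt.1 h)).le

instance : TopologicalSpace.SeparableSpace M := by
  have : SecondCountableTopology (C₀(ℕ, H) × C₀(ℕ, ℝ)) := UniformSpace.secondCountable_of_separable _
  exact inferInstanceAs (TopologicalSpace.SeparableSpace
    {x : C₀(ℕ, H) × C₀(ℕ, ℝ) // ∀ j, ‖x.1 j‖ ≤ x.2 j})

/-- The space without copies of `c₀`. -/
def ZS : Submodule ℝ B := (Submodule.span ℝ (range dl)).topologicalClosure

lemma dl_mem (x : M) : dl x ∈ ZS :=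
  Submodule.le_topologicalClosure _ (Submodule.subset_span ⟨x, rfl⟩)

instance : CompleteSpace ZS := (Submodule.isClosed_topologicalClosure _).completeSpace_coe

instance : TopologicalSpace.SeparableSpace ZS :=
  ((TopologicalSpace.isSeparable_range dl_continuous).span (R := ℝ)).closure.separableSpace

end Crest.Agent.H1Lip
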