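import Crest.Agent.H1Lip.Space

/-! Bump functions on `M`. -/

set_option autoImplicit false

open Set Filter Metric Topology

noncomputable section

namespace Crest.Agent.H1Lip

def clamp (t : ℝ) : ℝ := max 0 (min 1 t)

lemma clamp_nonneg (t : ℝ) : 0 ≤ clamp t := le_max_left _ _
lemma clamp_le_one (t : ℝ) : clamp t ≤ 1 := max_le zero_le_one (min_le_left _ _)
lemma clamp_of_one_le {t : ℝ} (h : 1 ≤ t) : clamp t = 1 := by simp [clamp, h]
lemma clamp_of_nonpos {t : ℝ} (h : t ≤ 0) : clamp t = 0 := by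
  simp [clamp, min_le_of_right_le h]
lemma pos_of_clamp_ne {t : ℝ} (h : clamp t ≠ 0) : 0 < t := by
  by_contra h'; exact h (clamp_of_nonpos (not_lt.1 h'))
lemma abs_clamp_sub (a b : ℝ) : |clamp a - clamp b| ≤ |a - b| := by
  unfold clamp
  refine (abs_max_sub_max_le_max _ _ _ _).trans (max_le (by simp) ?_)
  exact (abs_min_sub_min_le_max _ _ _ _).trans (max_le (by simp) le_rfl)

lemma abs_clamp_div {a b c R D : ℝ} (hR : 0 < R) (h : |a - b| ≤ D) :
    |clamp (c - a / R) - clamp (c - b / R)| ≤ D / R := by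
  refine (abs_clamp_sub _ _).trans ?_
  rw [show c - a / R - (c - b / R) = -(a - b) / R by ring, abs_div, abs_neg, abs_of_pos hR]
  exact div_le_div_of_nonneg_right h hR.le

def e1 : ℝ := 1 / 10 ^ 7
lemma e1_eq : e1 = 1 / 10 ^ 7 := rfl
lemma e1_pos : 0 < e1 := by rw [e1_eq]; positivity
attribute [irreducible] e1

def s (t : ℝ) : ℝ := Real.exp (t / e1)
lemma s_pos (t : ℝ) : 0 < s t := Real.exp_pos _
lemma s_add (a b : ℝ) : s (a + b) = s a * s b := by rw [s, add_div, Real.exp_add]; rfl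
lemma s_mono {a b : ℝ} (h : a ≤ b) : s a ≤ s b :=
  Real.exp_le_exp.2 (div_le_div_of_nonneg_right h e1_pos.le)
lemma s_zero : s 0 = 1 := by simp [s]
lemma two_le_s_one : 2 ≤ s 1 := by
  have := Real.add_one_le_exp (1 / e1)
  have h2 : (1 : ℝ) ≤ 1 / e1 := by rw [e1_eq]; norm_num
  unfold s; linarith
lemma le_s {t a : ℝ} (ht : 0 < t) (h : e1 * Real.log t ≤ a) : t ≤ s a := by
  rw [s, ← Real.log_le_iff_le_exp ht, le_div_iff₀ e1_pos]; linarith
lemma s_le {t a : ℝ} (ht : 0 < t) (h : a ≤ e1 * Real.log t) : s a ≤ t := by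
  rw [s, ← Real.le_log_iff_exp_le ht, div_le_iff₀ e1_pos]; linarith

def mL (k : ℤ) : ℕ := k.natAbs + 1
def Rk (k : ℤ) : ℝ := (S (mL k)).card * s (k + 3) / e1
def Rk' (k : ℤ) : ℝ := (mL k + 1) * (2 * Rk k)

lemma one_le_card (k : ℤ) : (1 : ℝ) ≤ (S (mL k)).card := by
  have : 0 < (S (mL k)).card := Finset.card_pos.2 ⟨(0, 0), by simp [S, mL]⟩
  exact_mod_cast this
lemma Rk_pos (k : ℤ) : 0 < Rk k :=
  div_pos (mul_pos (lt_of_lt_of_le one_pos (one_le_card k)) (s_pos _)) e1_pos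
lemma Rk'_pos (k : ℤ) : 0 < Rk' k := by have := Rk_pos k; unfold Rk'; positivity
lemma s_le_Rk' (k : ℤ) : s (k + 3) ≤ e1 * Rk' k := by
  have h1 := one_le_card k
  have h2 := s_pos (k + 3)
  have h3 : e1 * Rk k = (S (mL k)).card * s (k + 3) := by
    have := e1_pos.ne'; unfold Rk; field_simp
  have h4 : (0 : ℝ) ≤ mL k := Nat.cast_nonneg _
  have h5 : e1 * Rk' k = (mL k + 1) * (2 * (e1 * Rk k)) := by unfold Rk'; ring
  rw [h5, h3]
  have h6 : s (k + 3) ≤ (S (mL k)).card * s (k + 3) := by nlinarith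
  nlinarith

def beta (d : ℕ) (k : ℤ) (t : ℝ) : ℝ :=
  if 0 < t then clamp (d + 3 - |e1 * Real.log t - k|) else 0

lemma beta_nonneg (d k t) : 0 ≤ beta d k t := by
  unfold beta; split_ifs; exacts [clamp_nonneg _, le_rfl]
lemma beta_le_one (d k t) : beta d k t ≤ 1 := by
  unfold beta; split_ifs; exacts [clamp_le_one _, zero_le_one]
lemma beta_ne {d k t} (h : beta d k t ≠ 0) : 0 < t ∧ |e1 * Real.log t - k| < d + 3 := by
  unfold beta at h; split_ifs at h with h0
  · exact ⟨h0, by linarith [pos_of_clamp_ne h]⟩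
  · exact absurd rfl h
lemma beta_eq_one {d : ℕ} {k : ℤ} {t : ℝ} (h0 : 0 < t) (h : |e1 * Real.log t - k| ≤ d + 2) :
    beta d k t = 1 := by
  rw [beta, if_pos h0]; exact clamp_of_one_le (by linarith)
lemma beta_range {d k t} (h : beta d k t ≠ 0) : s (k - d - 3) ≤ t ∧ t ≤ s (k + d + 3) := by
  obtain ⟨h0, h1⟩ := beta_ne h
  have := abs_lt.1 h1
  exact ⟨s_le h0 (by linarith), le_s h0 (by linarith)⟩

lemma log_sub_le {t t' : ℝ} (h0 : 0 < t) (h : t ≤ t') :
    t * |Real.log t - Real.log t'| ≤ |t - t'| := by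
  have h1 : Real.log t ≤ Real.log t' := Real.log_le_log h0 h
  rw [abs_of_nonpos (by linarith), abs_of_nonpos (by linarith), neg_sub,
    ← Real.log_div (h0.trans_le h).ne' h0.ne']
  have := Real.log_le_sub_one_of_pos (div_pos (h0.trans_le h) h0)
  calc t * Real.log (t' / t) ≤ t * (t' / t - 1) := mul_le_mul_of_nonneg_left this h0.le
    _ = _ := by field_simp; ring

lemma beta_sharp (d k) {t t' : ℝ} (h0 : 0 ≤ t) (h : t ≤ t') :
    t * |beta d k t - beta d k t'| ≤ e1 * |t - t'| := by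
  rcases h0.eq_or_lt with rfl | h0
  · simp only [zero_mul]; exact mul_nonneg e1_pos.le (abs_nonneg _)
  rw [beta, beta, if_pos h0, if_pos (h0.trans_le h)]
  have h1 := abs_clamp_sub (d + 3 - |e1 * Real.log t - k|) (d + 3 - |e1 * Real.log t' - k|)
  have h2 : |d + 3 - |e1 * Real.log t - k| - (d + 3 - |e1 * Real.log t' - k|)| ≤
      e1 * |Real.log t - Real.log t'| := by
    rw [show (d + 3 - |e1 * Real.log t - k| - (d + 3 - |e1 * Real.log t' - k|) : ℝ) =
      -(|e1 * Real.log t - k| - |e1 * Real.log t' - k|) by ring, abs_neg]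
    refine (abs_abs_sub_abs_le _ _).trans (le_of_eq ?_)
    rw [show e1 * Real.log t - k - (e1 * Real.log t' - k) = e1 * (Real.log t - Real.log t') by ring,
      abs_mul, abs_of_pos e1_pos]
  have h3 := log_sub_le h0 h
  have := e1_pos
  calc _ ≤ t * (e1 * |Real.log t - Real.log t'|) := mul_le_mul_of_nonneg_left (h1.trans h2) h0.le
    _ = e1 * (t * |Real.log t - Real.log t'|) := by ring
    _ ≤ _ := mul_le_mul_of_nonneg_left h3 this.le

def zeta (d : ℕ) (k : ℤ) (c x : M) : ℝ := clamp (d + 3 - dm (mL k) x c / Rk' k)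

/-- A cell: coordinate, level, centre. -/
structure Cell where
  j : ℕ
  k : ℤ
  c : M

def Cell.Valid (G : Cell) : Prop := G.c ∈ Cen (mL G.k) (Rk G.k)

def theta (d : ℕ) (G : Cell) (x : M) : ℝ := beta d G.k (x.σ G.j) * zeta d G.k G.c x

lemma theta_nonneg (d G x) : 0 ≤ theta d G x := mul_nonneg (beta_nonneg _ _ _) (clamp_nonneg _)
lemma theta_le_one (d G x) : theta d G x ≤ 1 :=
  mul_le_one₀ (beta_le_one _ _ _) (clamp_nonneg _) (clamp_le_one _)
lemma theta_ne {d G x} (h : theta d G x ≠ 0) :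
    beta d G.k (x.σ G.j) ≠ 0 ∧ dm (mL G.k) x G.c ≤ (d + 3) * Rk' G.k := by
  refine ⟨left_ne_zero_of_mul h, ?_⟩
  have := pos_of_clamp_ne (right_ne_zero_of_mul h)
  rw [← div_le_iff₀ (Rk'_pos _)]; linarith
lemma theta_eq_one {d : ℕ} {G : Cell} {x : M} (h0 : 0 < x.σ G.j)
    (h1 : |e1 * Real.log (x.σ G.j) - G.k| ≤ d + 2) (h2 : dm (mL G.k) x G.c ≤ (d + 2) * Rk' G.k) :
    theta d G x = 1 := by
  rw [theta, beta_eq_one h0 h1, zeta, clamp_of_one_le, mul_one]
  rw [← div_le_iff₀ (Rk'_pos _)] at h2; linarith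
lemma theta_succ {d G x} (h : theta d G x ≠ 0) : theta (d + 1) G x = 1 := by
  obtain ⟨h1, h2⟩ := theta_ne h
  obtain ⟨h3, h4⟩ := beta_ne h1
  refine theta_eq_one h3 ?_ ?_ <;> push_cast
  · linarith
  · convert h2 using 2; ring
lemma theta_kap (d G x) : theta d G (kap G.j x) = 0 := by
  simp [theta, kap_σ, beta]
lemma theta_pr {d : ℕ} {G : Cell} {n : ℕ} (h1 : G.j < n) (h2 : mL G.k ≤ n) (x : M) :
    theta d G (pr n x) = theta d G x := by
  simp only [theta, zeta, pr_σ, h1, if_true, dm_pr h2]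

lemma theta_sharp (d : ℕ) (G : Cell) {x y : M} (h : x.σ G.j ≤ y.σ G.j) :
    x.σ G.j * |theta d G x - theta d G y| ≤ (1 + s d) * e1 * dist x y := by
  have h0 := x.σ_nonneg G.j
  have h1 := (beta_sharp d G.k h0 h).trans
    (mul_le_mul_of_nonneg_left (x.σ_sub_le y G.j) e1_pos.le)
  have h2 : |zeta d G.k G.c x - zeta d G.k G.c y| ≤ dist x y / Rk' G.k :=
    abs_clamp_div (Rk'_pos _) (abs_dm_sub _ _ _ _)
  have h3 : x.σ G.j * beta d G.k (x.σ G.j) ≤ s d * e1 * Rk' G.k := by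
    by_cases hb : beta d G.k (x.σ G.j) = 0
    · rw [hb, mul_zero]; exact mul_nonneg (mul_pos (s_pos _) e1_pos).le (Rk'_pos _).le
    · have h4 := (beta_range hb).2
      rw [show (G.k + d + 3 : ℝ) = d + (G.k + 3) by ring, s_add] at h4
      calc _ ≤ x.σ G.j := mul_le_of_le_one_right h0 (beta_le_one _ _ _)
        _ ≤ s d * (e1 * Rk' G.k) :=
          h4.trans (mul_le_mul_of_nonneg_left (s_le_Rk' _) (s_pos _).le)
        _ = _ := by ring
  have e : theta d G x - theta d G y =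
      beta d G.k (x.σ G.j) * (zeta d G.k G.c x - zeta d G.k G.c y) +
      (beta d G.k (x.σ G.j) - beta d G.k (y.σ G.j)) * zeta d G.k G.c y := by
    unfold theta; ring
  have hz0 : 0 ≤ zeta d G.k G.c y := clamp_nonneg _
  have hz1 : zeta d G.k G.c y ≤ 1 := clamp_le_one _
  have hR := Rk'_pos G.k
  rw [e]
  calc _ ≤ x.σ G.j * (beta d G.k (x.σ G.j) * (dist x y / Rk' G.k) +
        |beta d G.k (x.σ G.j) - beta d G.k (y.σ G.j)|) := by
        refine mul_le_mul_of_nonneg_left ((abs_add_le _ _).trans (add_le_add ?_ ?_)) h0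
        · rw [abs_mul, abs_of_nonneg (beta_nonneg _ _ _)]
          exact mul_le_mul_of_nonneg_left h2 (beta_nonneg _ _ _)
        · rw [abs_mul, abs_of_nonneg hz0]; exact mul_le_of_le_one_right (abs_nonneg _) hz1
    _ = x.σ G.j * beta d G.k (x.σ G.j) * (dist x y / Rk' G.k) +
        x.σ G.j * |beta d G.k (x.σ G.j) - beta d G.k (y.σ G.j)| := by ring
    _ ≤ s d * e1 * Rk' G.k * (dist x y / Rk' G.k) + e1 * dist x y :=
        add_le_add (mul_le_mul_of_nonneg_right h3 (by positivity)) h1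
    _ = _ := by field_simp; ring

def tail (n n' : ℕ) (x : M) : ℝ := (Finset.Ioc n n').fold max 0 x.σ

lemma tail_le {n n' : ℕ} {x : M} {a : ℝ} :
    tail n n' x ≤ a ↔ 0 ≤ a ∧ ∀ l ∈ Finset.Ioc n n', x.σ l ≤ a := Finset.fold_max_le _
lemma tail_nonneg (n n' x) : 0 ≤ tail n n' x := (tail_le.1 le_rfl).1
lemma le_tail {n n' l : ℕ} (h : l ∈ Finset.Ioc n n') (x : M) : x.σ l ≤ tail n n' x :=
  (tail_le.1 le_rfl).2 l h
lemma abs_tail_sub (n n' : ℕ) (x y : M) : |tail n n' x - tail n n' y| ≤ dist x y := by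
  have key : ∀ x y : M, tail n n' x ≤ tail n n' y + dist x y := fun x y =>
    tail_le.2 ⟨add_nonneg (tail_nonneg _ _ _) dist_nonneg, fun l hl => by
      linarith [le_tail hl y, (abs_le.1 (x.σ_sub_le y l)).2]⟩
  have := key x y; have := key y x; rw [dist_comm] at this
  rw [abs_le]; constructor <;> linarith
lemma tail_pr {n n' m : ℕ} (h : n' < m) (x : M) : tail n n' (pr m x) = tail n n' x :=
  Finset.fold_congr fun l hl => by
    rw [pr_σ, if_pos (by have := (Finset.mem_Ioc.1 hl).2; omega)]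

def ak (d : ℕ) (k : ℤ) : ℝ := s (k - d - 3)
lemma ak_pos (d k) : 0 < ak d k := s_pos _
lemma two_ak_succ (d k) : 2 * ak (d + 1) k ≤ ak d k := by
  have : ak d k = s 1 * ak (d + 1) k := by
    unfold ak; rw [← s_add]; congr 1; push_cast; ring
  rw [this]; exact mul_le_mul_of_nonneg_right two_le_s_one (ak_pos _ _).le

def omega (d : ℕ) (k : ℤ) (n n' : ℕ) (x : M) : ℝ := clamp (2 - tail n n' x / ak d k)

lemma omega_eq_one {d k n n' x} (h : tail n n' x ≤ ak d k) : omega d k n n' x = 1 :=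
  clamp_of_one_le (by rw [← div_le_one (ak_pos _ _)] at h; linarith)
lemma omega_eq_zero {d k n n' x} (h : 2 * ak d k ≤ tail n n' x) : omega d k n n' x = 0 :=
  clamp_of_nonpos (by rw [← le_div_iff₀ (ak_pos _ _)] at h; linarith)

def rho (m : ℕ) : ℝ := (1 / 2) ^ m
lemma rho_pos (m) : 0 < rho m := by unfold rho; positivity
lemma rho_tendsto : Tendsto rho atTop (𝓝 0) :=
  tendsto_pow_atTop_nhds_zero_of_lt_one (by norm_num) (by norm_num)
def muB (m : ℕ) : ℝ := rho m / (8 * (m + 1))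
lemma muB_pos (m) : 0 < muB m := by have := rho_pos m; unfold muB; positivity
lemma muB_eq (m : ℕ) : (m + 1) * (2 * muB m) = rho m / 4 := by unfold muB; field_simp; ring

def eta (m : ℕ) (c x : M) : ℝ := clamp (2 - dm m x c / rho m)
lemma eta_eq_one {m c x} (h : dm m x c ≤ rho m) : eta m c x = 1 :=
  clamp_of_one_le (by rw [← div_le_one (rho_pos _)] at h; linarith)
lemma eta_ne {m c x} (h : eta m c x ≠ 0) : dm m x c ≤ 2 * rho m := by
  have := pos_of_clamp_ne h
  rw [← div_le_iff₀ (rho_pos _)]; linarith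

/-- The localisation radii tend to zero at small scales. -/
lemma Rk'_tendsto : Tendsto Rk' atBot (𝓝 0) := by
  have h1 : Tendsto (fun k : ℤ => (-(k : ℝ)) / e1) atBot atTop :=
    (tendsto_neg_atBot_atTop.comp (tendsto_intCast_atBot_iff.2 tendsto_id)).atTop_div_const e1_pos
  have h2 := ((Real.tendsto_pow_mul_exp_neg_atTop_nhds_zero 3).comp h1).const_mul (2 * s 3 / e1)
  rw [mul_zero] at h2
  refine squeeze_zero' (Eventually.of_forall fun k => (Rk'_pos k).le) ?_ h2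
  filter_upwards [eventually_le_atBot (-1)] with k hk
  have hk' : (k : ℝ) ≤ -1 := by exact_mod_cast hk
  have hm : (mL k : ℝ) = -k + 1 := by
    simp only [mL]; push_cast; rw [Nat.cast_natAbs, Int.cast_abs, abs_of_neg (by linarith)]
  have hc : ((S (mL k)).card : ℝ) = mL k * (mL k + 1) := by simp [S]
  have h3 : -(k : ℝ) + 2 ≤ -k / e1 := by
    rw [le_div_iff₀ e1_pos, e1_eq]; linarith
  have h4 : s (k + 3) = Real.exp (-(-k / e1)) * s 3 := by
    rw [s_add]; congr 1; unfold s; congr 1; ring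
  simp only [Function.comp, Rk', Rk, hc, hm, h4]
  have h5 : (-(k : ℝ) + 1 + 1) * ((-k + 1) * (-k + 1 + 1)) ≤ (-k / e1) ^ 3 := by
    calc _ ≤ (-(k : ℝ) + 2) ^ 3 := by nlinarith
      _ ≤ _ := pow_le_pow_left₀ (by linarith) h3 3
  have h6 : 0 < 2 * s 3 / e1 * Real.exp (-(-k / e1)) :=
    mul_pos (div_pos (mul_pos two_pos (s_pos _)) e1_pos) (Real.exp_pos _)
  calc _ = (2 * s 3 / e1 * Real.exp (-(-k / e1))) *
        ((-(k : ℝ) + 1 + 1) * ((-k + 1) * (-k + 1 + 1))) := by ring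
    _ ≤ (2 * s 3 / e1 * Real.exp (-(-k / e1))) * (-k / e1) ^ 3 :=
        mul_le_mul_of_nonneg_left h5 h6.le
    _ = _ := by ring

end Crest.Agent.H1Lip
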