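import Crest.Agent.H1Lip.Princ

/-! The fine principle and the escaping principle. -/

set_option autoImplicit false

open Set Filter Metric Topology

noncomputable section

namespace Crest.Agent.H1Lip

lemma U_not {p : ℕ → Prop} (h : ¬ ∀ᶠ i in U, p i) : ∀ᶠ i in U, ¬ p i :=
  (Ultrafilter.eventually_not (f := hyperfilter ℕ)).2 h

lemma sum_nested {N : ℕ} {g : ℕ → M → ℝ} {L : ℝ} (hL : 0 ≤ L) (hl : ∀ l < N, Lip (g l) L)
    (δ : ℕ → M → ℝ) (r : ℕ → ℝ) (hδ : ∀ l x y, |δ l x - δ l y| ≤ dist x y)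
    (hconst : ∀ l < N, ∀ x y, δ l x ≤ r l → δ l y ≤ r l → g l x = g l y)
    (hsupp : ∀ l l', l < l' → l' < N → ∀ x, (g l' x ≠ 0 → δ l x ≤ r l / 2) ∧
      N * |g l' x| ≤ r l / 2) (x y : M) :
    ∑ l ∈ Finset.range N, |g l x - g l y| ≤ (L + 1) * dist x y := by
  classical
  by_cases hne : ∃ l, l < N ∧ g l x ≠ g l y
  swap
  · push Not at hne
    rw [Finset.sum_eq_zero fun l hl => by rw [hne l (Finset.mem_range.1 hl)]; simp]
    positivity
  set a := Nat.find hne with ha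
  obtain ⟨haN, hxy⟩ := Nat.find_spec hne
  have hN : (0 : ℝ) < N := by exact_mod_cast (Nat.zero_le _).trans_lt haN
  have key : ∀ x y : M, r a < δ a y → ∀ l, a < l → l < N → |g l x - g l y| ≤ dist x y / N := by
    intro x y hy l h1 h2
    have hr : 0 ≤ r a / 2 := le_trans (by positivity) (hsupp a l h1 h2 x).2
    have h3 : g l y = 0 := by
      by_contra h; linarith [(hsupp a l h1 h2 y).1 h]
    rw [h3, sub_zero, le_div_iff₀ hN]
    by_cases h4 : g l x = 0
    · rw [h4]; simp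
    · linarith [(hsupp a l h1 h2 x).1 h4, (hsupp a l h1 h2 x).2, (abs_le.1 (hδ a x y)).1]
  have key2 : ∀ l, a < l → l < N → |g l x - g l y| ≤ dist x y / N := by
    intro l h1 h2
    by_cases hy : r a < δ a y
    · exact key x y hy l h1 h2
    · have hx : r a < δ a x := by
        by_contra hx; exact hxy (hconst a haN x y (not_lt.1 hx) (not_lt.1 hy))
      rw [abs_sub_comm, dist_comm]; exact key y x hx l h1 h2
  calc _ ≤ ∑ l ∈ Finset.range N, ((if l = a then L * dist x y else 0) + dist x y / N) := by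
        refine Finset.sum_le_sum fun l hl' => ?_
        have hlN := Finset.mem_range.1 hl'
        have h0 : 0 ≤ dist x y / N := by positivity
        rcases lt_trichotomy l a with h | h | h
        · have : g l x = g l y := by
            by_contra h'; exact Nat.find_min hne h ⟨hlN, h'⟩
          rw [this, if_neg h.ne]; simpa using h0
        · rw [if_pos h]; linarith [hl l hlN x y]
        · rw [if_neg h.ne', zero_add]; exact key2 l h hlN
    _ = _ := by
        rw [Finset.sum_add_distrib, Finset.sum_ite_eq', if_pos (Finset.mem_range.2 haN)]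
        simp only [Finset.sum_const, Finset.card_range, nsmul_eq_mul]
        field_simp

/-- Fine principle. -/
theorem FP {z} (hW : W z) (hz : ∀ i, FS (z i)) {D : ℕ} {c K : ℝ} (hc : 0 < c) (hK : 1 ≤ K)
    {g : ℕ → M → ℝ} {x : ℕ → M} {m : ℕ → ℕ} {r : ℕ → ℝ} (hm : Tendsto m U atTop)
    (hr : Tendsto r U (𝓝 0))
    (hg : ∀ᶠ i in U, (Cmb D K (g i) ∧ c ≤ |z i (g i)|) ∧
      ∀ y, (g i y ≠ 0 → dm (m i) y (x i) ≤ r i) ∧ |g i y| ≤ r i) : False := by
  by_cases hcon : ∀ n, ∃ c ∈ Cen n (muB n), ∀ᶠ i in U, dm n (x i) c ≤ rho n / 4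
  swap
  · push Not at hcon
    obtain ⟨n, hn⟩ := hcon
    refine DP hW hc hK (hg.and ((hm.eventually (eventually_ge_atTop n)).and
      (hr.eventually (eventually_le_nhds one_pos)))) (fun i hi => hi.1.1) fun i hi => ?_
    have h1 := escape (ρ := 2) (muB_pos n) (x := x) (fun c hc => by
      rw [muB_eq]
      exact hn c hc) (x i)
    filter_upwards [h1, hg, hm.eventually (eventually_ge_atTop n),
      hr.eventually (eventually_le_nhds one_pos)] with i' h1 h2 h3 h4 y
    by_contra hy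
    push Not at hy
    have h5 := (dm_mono hi.2.1 _ _).trans ((hi.1.2 y).1 hy.1)
    have h6 := (dm_mono h3 _ _).trans ((h2.2 y).1 hy.2)
    have := dm_tri n (x i') y (x i)
    rw [dm_comm n (x i') y] at this
    linarith [hi.2.2]
  choose cen hcen hev using hcon
  have hLD := one_le_LD D
  set L := K * LD D with hL
  have hL1 : 1 ≤ L := by rw [hL]; nlinarith
  refine contra hW (D := D + 1) (half_pos hc) (K := K + K) (L := 4 * L + 1) (by linarith)
    (by linarith) fun N => ?_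
  obtain ⟨f, h1, h2⟩ := exists_seq_of_forall_finset_exists
    (fun p : ℕ × ℕ => ((Cmb D K (g p.1) ∧ c ≤ |z p.1 (g p.1)|) ∧
      ∀ y, (g p.1 y ≠ 0 → dm (m p.1) y (x p.1) ≤ r p.1) ∧ |g p.1 y| ≤ r p.1) ∧
      (∀ y, g p.1 (pr p.2 y) = g p.1 y) ∧ |z p.1 (TB p.2 (cen p.2) (g p.1))| ≤ c / 2)
    (fun p p' => (p.1 < p'.1 ∧ p.2 ≤ m p'.1 ∧ (N + 1) * r p'.1 ≤ rho p.2 / 4 ∧
      dm p.2 (x p'.1) (cen p.2) ≤ rho p.2 / 4) ∧ p.2 ≤ p'.2 ∧
      (N + 1) * (9 * L * rho p'.2) ≤ rho p.2) (fun s hs => by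
      have hi : ∀ᶠ i in U, ∀ p ∈ s, p.1 < i ∧ p.2 ≤ m i ∧ (N + 1) * r i ≤ rho p.2 / 4 ∧
          dm p.2 (x i) (cen p.2) ≤ rho p.2 / 4 := (eventually_all_finset s).2 fun p _ =>
        ((eventually_gt_atTop p.1).filter_mono U_le).and ((hm.eventually (eventually_ge_atTop _)).and
          ((((hr.const_mul ((N : ℝ) + 1)).eventually (eventually_le_nhds
            (by rw [mul_zero]; have := rho_pos p.2; positivity)))).and (hev p.2)))
      obtain ⟨i, hi1, hi2⟩ := (hg.and hi).exists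
      obtain ⟨T, B, hB, hT⟩ := hz i
      have hn1 : ∀ᶠ n in atTop, B * (2 * L * rho n) ≤ c / 2 :=
        ((rho_tendsto.const_mul _).const_mul B).eventually (eventually_le_nhds (by simpa using hc))
      have hn2 : ∀ᶠ n in atTop, ∀ p ∈ s, p.2 ≤ n ∧ (N + 1) * (9 * L * rho n) ≤ rho p.2 :=
        (eventually_all_finset s).2 fun p _ => (eventually_ge_atTop _).and
          (((rho_tendsto.const_mul _).const_mul _).eventually
            (eventually_le_nhds (by simpa using rho_pos p.2)))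
      obtain ⟨n, hn3, hn4, hn5⟩ := (hi1.1.1.dep.and (hn1.and hn2)).exists
      refine ⟨(i, n), ⟨hi1, hn3, le_trans (hT _ _ ?_ fun y _ =>
        abs_TB_le hi1.1.1.lip (by linarith) _ _ _) hn4⟩, fun p hp => ⟨hi2 p hp, hn5 p hp⟩⟩
      have := rho_pos n; positivity)
  refine ⟨fun l => (f l).1, fun l => g (f l).1 - TB (f l).2 (cen (f l).2) (g (f l).1),
    (strictMono_nat_of_lt_succ fun n => (h2 _ _ n.lt_succ_self).1.1).injective, fun l _ => ?_, ?_⟩
  · refine ⟨((h1 l).1.1.1.depth (Nat.le_succ D)).sub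
      ((h1 l).1.1.1.map _ fun g hg => hg.opB _ _ (hcen _)), ?_⟩
    rw [map_sub]
    linarith [abs_sub_abs_le_abs_sub (z (f l).1 (g (f l).1))
      (z (f l).1 (TB (f l).2 (cen (f l).2) (g (f l).1))), (h1 l).1.1.2, (h1 l).2.2]
  refine sum_nested (by linarith) (fun l _ x y => ?_) (fun l y => dm (f l).2 y (cen (f l).2))
    (fun l => rho (f l).2) (fun l x y => abs_dm_sub _ _ _ _) (fun l _ x y hx hy => ?_)
    fun l l' hl _ y => ?_
  · have h3 := (h1 l).1.1.1.lip x y
    have h4 := lip_TB (h1 l).1.1.1.lip (by linarith) (f l).2 (cen (f l).2) x y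
    simp only [Pi.sub_apply]
    rw [sub_sub_sub_comm]
    refine (abs_sub _ _).trans ?_
    rw [← hL] at h3 h4
    linarith
  · simp only [Pi.sub_apply, TB_apply, eta_eq_one hx, eta_eq_one hy, (h1 l).2.1]; ring
  · obtain ⟨⟨-, h3, h4, h5⟩, h6, h7⟩ := h2 l l' hl
    have h8 := (h1 l').1.2 y
    have hr0 : 0 ≤ r (f l').1 := (abs_nonneg _).trans h8.2
    have hN0 : (0 : ℝ) ≤ N := Nat.cast_nonneg _
    have hρ := rho_pos (f l').2
    have h9 := abs_TB_le (h1 l').1.1.1.lip (by linarith) (f l').2 (cen (f l').2) y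
    rw [← hL] at h9
    have h10 : 0 ≤ L * rho (f l').2 := by positivity
    constructor
    · intro hy
      by_cases hy1 : g (f l').1 y = 0
      · have hy2 : eta (f l').2 (cen (f l').2) y ≠ 0 := by
          intro h; apply hy; simp only [Pi.sub_apply, TB_apply, h, hy1]; ring
        obtain ⟨i, hi1, hi2⟩ := ((hev (f l).2).and (hev (f l').2)).exists
        have e1 := (dm_mono h6 _ _).trans (eta_ne hy2)
        have e2 := (dm_mono h6 _ _).trans hi2
        have e3 := dm_tri (f l).2 y (cen (f l').2) (cen (f l).2)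
        have e4 := dm_tri (f l).2 (cen (f l').2) (x i) (cen (f l).2)
        rw [dm_comm _ (cen (f l').2) (x i)] at e4
        nlinarith
      · have e1 := (dm_mono h3 _ _).trans (h8.1 hy1)
        have e3 := dm_tri (f l).2 y (x (f l').1) (cen (f l).2)
        nlinarith
    · have := abs_sub (g (f l').1 y) (TB (f l').2 (cen (f l').2) (g (f l').1) y)
      simp only [Pi.sub_apply]
      nlinarith [h8.2]

/-- Functions vanishing off the support of a cell bump. -/
def Sh (e : ℕ) (G : Cell) (h : M → ℝ) : Prop := ∀ y, h y ≠ 0 → theta e G y ≠ 0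

lemma Sh.kap {e G h} (hs : Sh e G h) (y : M) : h (kap G.j y) = 0 := by
  by_contra h'; exact hs _ h' (theta_kap _ _ _)

lemma Sh.TA {e G h} (hs : Sh e G h) (n n' : ℕ) (y : M) :
    TA (e + 1) G n n' h y = h y * omega (e + 1) G.k n n' y := by
  rw [TA_apply, hs.kap, sub_zero]
  by_cases hy : h y = 0
  · simp [hy]
  · rw [theta_succ (hs y hy), one_mul]

/-- Escaping principle. -/
theorem EP {z} (hW : W z) (hz : ∀ i, FS (z i)) {D e : ℕ} {c K : ℝ} (hc : 0 < c) (hK : 1 ≤ K)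
    {G : ℕ → Cell} {h : ℕ → ℕ → M → ℝ} {t : ℕ → ℕ → ℕ}
    (hk : ∀ i, ∀ᶠ i' in U, (G i).k ≤ (G i').k)
    (hh : ∀ n, ∀ᶠ i in U, (G i).Valid ∧ (Cmb D K (h i n) ∧ c ≤ |z i (h i n)|) ∧
      Sh e (G i) (h i n) ∧ ∀ y, h i n y ≠ 0 → ak e (G i).k ≤ tail n (t i n) y) : False := by
  choose T B hB hT using hz
  have hnn : ∀ i, ∃ n, ∀ y ∈ T i, ∀ l, n ≤ l → y.σ l ≤ ak (e + 1) (G i).k := fun i =>
    eventually_atTop.1 ((eventually_all_finset (T i)).2 fun y _ =>
      y.σ_tendsto.eventually (eventually_le_nhds (ak_pos _ _))) |>.imp fun n hn y hy l hl =>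
        hn l hl y hy
  choose nn hnn using hnn
  obtain ⟨f, h1, h2⟩ := exists_seq_of_forall_finset_exists
    (fun p : ℕ × ℕ => (G p.1).Valid ∧ (Cmb D K (h p.1 p.2) ∧ c ≤ |z p.1 (h p.1 p.2)|) ∧
      Sh e (G p.1) (h p.1 p.2) ∧ ∀ y, h p.1 p.2 y ≠ 0 → ak e (G p.1).k ≤ tail p.2 (t p.1 p.2) y)
    (fun p p' => (p.1 < p'.1 ∧ (G p.1).k ≤ (G p'.1).k) ∧ nn p.1 ≤ p'.2) (fun s hs => by
      obtain ⟨i, hi1, hi2⟩ := ((hh (s.sup fun p => nn p.1)).and ((eventually_all_finset s).2
        fun p _ => ((eventually_gt_atTop p.1).filter_mono U_le).and (hk p.1))).exists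
      exact ⟨(i, _), hi1, fun p hp => ⟨hi2 p hp, Finset.le_sup (f := fun p => nn p.1) hp⟩⟩)
  have hL := one_le_LD (max D (e + 1) + 1)
  refine contra hW (D := max D (e + 1) + 1) hc hK (L := 2 * (K * LD (max D (e + 1) + 1)))
    (by nlinarith) fun N => ?_
  set τ := (Finset.range N).sup fun l => t (f l).1 (f l).2
  have hC : ∀ l, Cmb (max D (e + 1) + 1) K (TA (e + 1) (G (f l).1) (nn (f l).1) τ (h (f l).1 (f l).2)) :=
    fun l => (h1 l).2.1.1.map _ fun g hg =>
      (hg.mono' (le_max_left _ _)).opA _ _ _ _ (le_max_right _ _) (h1 l).1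
  refine ⟨fun l => (f l).1, fun l => TA (e + 1) (G (f l).1) (nn (f l).1) τ (h (f l).1 (f l).2),
    (strictMono_nat_of_lt_succ fun n => (h2 _ _ n.lt_succ_self).1.1).injective,
    fun l _ => ⟨hC l, ?_⟩, sum_disj (by nlinarith) (fun l _ => (hC l).lip) fun l l' hl hN y => ?_⟩
  · have h3 := hT (f l).1 (TA (e + 1) (G (f l).1) (nn (f l).1) τ (h (f l).1 (f l).2) -
      h (f l).1 (f l).2) 0 le_rfl fun y hy => by
        rw [Pi.sub_apply, (h1 l).2.2.1.TA, omega_eq_one (tail_le.2 ⟨(ak_pos _ _).le, fun a ha =>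
          hnn _ y hy a (Finset.mem_Ioc.1 ha).1.le⟩)]
        simp
    rw [mul_zero, abs_nonpos_iff, map_sub, sub_eq_zero] at h3
    rw [h3]; exact (h1 l).2.1.2
  · by_cases hy : h (f l').1 (f l').2 y = 0
    · right; rw [(h1 l').2.2.1.TA, hy, zero_mul]
    · left
      rw [(h1 l).2.2.1.TA, omega_eq_zero, mul_zero]
      have h3 := (h1 l').2.2.2 y hy
      have h4 : tail (f l').2 (t (f l').1 (f l').2) y ≤ tail (nn (f l).1) τ y :=
        tail_le.2 ⟨tail_nonneg _ _ _, fun a ha => le_tail (Finset.mem_Ioc.2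
          ⟨(h2 l l' hl).2.trans_lt (Finset.mem_Ioc.1 ha).1, (Finset.mem_Ioc.1 ha).2.trans
            (Finset.le_sup (f := fun l => t (f l).1 (f l).2) (Finset.mem_range.2 hN))⟩) y⟩
      have h5 : ak e (G (f l).1).k ≤ ak e (G (f l').1).k := s_mono (by
        have : ((G (f l).1).k : ℝ) ≤ (G (f l').1).k := by exact_mod_cast (h2 l l' hl).1.2
        linarith)
      linarith [two_ak_succ e (G (f l).1).k]

end Crest.Agent.H1Lip
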