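import Crest.Agent.H1Lip.Bump

/-! The families of test functions. -/

set_option autoImplicit false

open Set Filter Metric Topology

noncomputable section

namespace Crest.Agent.H1Lip

def Lip (f : M → ℝ) (L : ℝ) : Prop := ∀ x y, |f x - f y| ≤ L * dist x y

lemma Lip.mono {f L L'} (h : Lip f L) (hL : L ≤ L') : Lip f L' := fun x y =>
  (h x y).trans (mul_le_mul_of_nonneg_right hL dist_nonneg)

lemma lip_of_le {f : M → ℝ} {L : ℝ} (j : ℕ)
    (h : ∀ x y : M, x.σ j ≤ y.σ j → |f x - f y| ≤ L * dist x y) : Lip f L := fun x y => by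
  rcases le_total (x.σ j) (y.σ j) with h1 | h1
  · exact h x y h1
  · rw [abs_sub_comm, dist_comm]; exact h y x h1

lemma abs_mul_sub_mul {a a' b b' : ℝ} (h0 : 0 ≤ b') (h1 : b' ≤ 1) :
    |a * b - a' * b'| ≤ |a| * |b - b'| + |a - a'| := by
  rw [show a * b - a' * b' = a * (b - b') + (a - a') * b' by ring]
  refine (abs_add_le _ _).trans ?_
  rw [abs_mul, abs_mul, abs_of_nonneg h0]
  exact add_le_add le_rfl (mul_le_of_le_one_right (abs_nonneg _) h1)

def TA (d : ℕ) (G : Cell) (n n' : ℕ) : (M → ℝ) →ₗ[ℝ] (M → ℝ) where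
  toFun f x := (f x - f (kap G.j x)) * (theta d G x * omega d G.k n n' x)
  map_add' f g := by ext x; simp only [Pi.add_apply]; ring
  map_smul' c f := by ext x; simp only [Pi.smul_apply, smul_eq_mul, RingHom.id_apply]; ring

def TB (m : ℕ) (c : M) : (M → ℝ) →ₗ[ℝ] (M → ℝ) where
  toFun f x := (f (pr m x) - f (pr m c)) * eta m c x
  map_add' f g := by ext x; simp only [Pi.add_apply]; ring
  map_smul' c f := by ext x; simp only [Pi.smul_apply, smul_eq_mul, RingHom.id_apply]; ring

lemma TA_apply (d G n n' f x) :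
    TA d G n n' f x = (f x - f (kap G.j x)) * (theta d G x * omega d G.k n n' x) := rfl
lemma TB_apply (m c f x) : TB m c f x = (f (pr m x) - f (pr m c)) * eta m c x := rfl

def root (ξ : H) (G G' : Cell) (e : ℕ) (x : M) : ℝ :=
  inner ℝ ξ (x.u G.j) * (theta 0 G x * theta e G' x)

def CA (d : ℕ) : ℝ := 2 + (1 + s d) * e1 + s (2 * d + 6)

lemma CA_ge (d) : 2 ≤ CA d := by
  have := s_pos d; have := s_pos (2 * d + 6); have := e1_pos; unfold CA; nlinarith

lemma abs_sub_kap {f L} (h : Lip f L) (hL : 0 ≤ L) (j : ℕ) (x : M) :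
    |f x - f (kap j x)| ≤ L * x.σ j :=
  (h _ _).trans (mul_le_mul_of_nonneg_left (dist_kap_self j x) hL)

lemma lip_TA {f L} (h : Lip f L) (hL : 0 ≤ L) (d G n n') : Lip (TA d G n n' f) (CA d * L) := by
  refine lip_of_le G.j fun x y hxy => ?_
  have hω0 : 0 ≤ omega d G.k n n' y := clamp_nonneg _
  have hω1 : omega d G.k n n' y ≤ 1 := clamp_le_one _
  have h1 := abs_mul_sub_mul (a := f x - f (kap G.j x)) (a' := f y - f (kap G.j y))
    (b := theta d G x * omega d G.k n n' x) (mul_nonneg (theta_nonneg d G y) hω0)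
    (mul_le_one₀ (theta_le_one d G y) hω0 hω1)
  have h2 : |f x - f (kap G.j x) - (f y - f (kap G.j y))| ≤ 2 * L * dist x y := by
    have := h x y
    have h' := (h (kap G.j x) (kap G.j y)).trans (mul_le_mul_of_nonneg_left (dist_kap_le _ _ _) hL)
    rw [show f x - f (kap G.j x) - (f y - f (kap G.j y)) =
      (f x - f y) - (f (kap G.j x) - f (kap G.j y)) by ring]
    linarith [abs_sub (f x - f y) (f (kap G.j x) - f (kap G.j y))]
  have h3 := abs_mul_sub_mul (a := theta d G x) (a' := theta d G y) (b := omega d G.k n n' x) hω0 hω1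
  have h4 : |omega d G.k n n' x - omega d G.k n n' y| ≤ dist x y / ak d G.k :=
    abs_clamp_div (ak_pos _ _) (abs_tail_sub _ _ _ _)
  have h5 : x.σ G.j * theta d G x ≤ s (2 * d + 6) * ak d G.k := by
    by_cases hb : theta d G x = 0
    · rw [hb, mul_zero]; exact (mul_pos (s_pos _) (ak_pos _ _)).le
    · have := (beta_range (theta_ne hb).1).2
      rw [ak, ← s_add, show (2 * d + 6 + (G.k - d - 3) : ℝ) = G.k + d + 3 by ring]
      exact (mul_le_of_le_one_right (x.σ_nonneg _) (theta_le_one _ _ _)).trans this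
  have h6 := theta_sharp d G hxy
  have hak := ak_pos d G.k
  have h7 : x.σ G.j * |theta d G x * omega d G.k n n' x - theta d G y * omega d G.k n n' y| ≤
      (s (2 * d + 6) + (1 + s d) * e1) * dist x y := by
    rw [abs_of_nonneg (theta_nonneg d G x)] at h3
    calc _ ≤ x.σ G.j * (theta d G x * (dist x y / ak d G.k) + |theta d G x - theta d G y|) :=
          mul_le_mul_of_nonneg_left (h3.trans (add_le_add
            (mul_le_mul_of_nonneg_left h4 (theta_nonneg _ _ _)) le_rfl)) (x.σ_nonneg _)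
      _ = x.σ G.j * theta d G x * (dist x y / ak d G.k) +
          x.σ G.j * |theta d G x - theta d G y| := by ring
      _ ≤ s (2 * d + 6) * ak d G.k * (dist x y / ak d G.k) + (1 + s d) * e1 * dist x y :=
          add_le_add (mul_le_mul_of_nonneg_right h5 (by positivity)) h6
      _ = _ := by field_simp
  have h8 := mul_le_mul_of_nonneg_right (abs_sub_kap h hL G.j x)
    (abs_nonneg (theta d G x * omega d G.k n n' x - theta d G y * omega d G.k n n' y))
  have h9 := mul_le_mul_of_nonneg_left h7 hL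
  rw [TA_apply, TA_apply]
  unfold CA
  nlinarith

lemma abs_TB_le {f L} (h : Lip f L) (hL : 0 ≤ L) (m c x) : |TB m c f x| ≤ 2 * L * rho m := by
  by_cases he : eta m c x = 0
  · rw [TB_apply, he, mul_zero, abs_zero]; have := rho_pos m; positivity
  · rw [TB_apply, abs_mul, abs_of_nonneg (show 0 ≤ eta m c x from clamp_nonneg _)]
    have h1 : |f (pr m x) - f (pr m c)| ≤ L * (2 * rho m) :=
      (h _ _).trans (mul_le_mul_of_nonneg_left (eta_ne he) hL)
    have h2 := mul_le_of_le_one_right (abs_nonneg (f (pr m x) - f (pr m c)))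
      (show eta m c x ≤ 1 from clamp_le_one _)
    linarith

lemma lip_TB {f L} (h : Lip f L) (hL : 0 ≤ L) (m c) : Lip (TB m c f) (3 * L) := by
  have key : ∀ x y, eta m c x ≠ 0 → |TB m c f x - TB m c f y| ≤ 3 * L * dist x y := by
    intro x y he
    have h1 := abs_mul_sub_mul (a := f (pr m x) - f (pr m c)) (a' := f (pr m y) - f (pr m c))
      (b := eta m c x) (b' := eta m c y) (clamp_nonneg _) (clamp_le_one _)
    have h2 : |f (pr m x) - f (pr m c)| ≤ L * (2 * rho m) :=
      (h _ _).trans (mul_le_mul_of_nonneg_left (eta_ne he) hL)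
    have h3 : |eta m c x - eta m c y| ≤ dist x y / rho m :=
      abs_clamp_div (rho_pos _) (abs_dm_sub _ _ _ _)
    have h4 := (h (pr m x) (pr m y)).trans (mul_le_mul_of_nonneg_left (dist_pr_le _ _ _) hL)
    have hr := rho_pos m
    have h5 := mul_le_mul h2 h3 (abs_nonneg _) (by positivity)
    rw [show L * (2 * rho m) * (dist x y / rho m) = 2 * L * dist x y by field_simp] at h5
    rw [sub_sub_sub_cancel_right] at h1
    rw [TB_apply, TB_apply]; linarith
  intro x y
  by_cases hx : eta m c x = 0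
  · by_cases hy : eta m c y = 0
    · rw [TB_apply, TB_apply, hx, hy]; simp; positivity
    · rw [abs_sub_comm, dist_comm]; exact key y x hy
  · exact key x y hx

lemma theta_mul_sharp {G G' : Cell} (hj : G'.j = G.j) (e : ℕ) {x y : M} (h : x.σ G.j ≤ y.σ G.j) :
    x.σ G.j * |theta 0 G x * theta e G' x - theta 0 G y * theta e G' y| ≤
      (3 + s e) * e1 * dist x y := by
  have h1 := abs_mul_sub_mul (a := theta 0 G x) (a' := theta 0 G y) (b := theta e G' x)
    (theta_nonneg e G' y) (theta_le_one e G' y)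
  have h2 := theta_sharp 0 G h
  have h3 := theta_sharp e G' (hj ▸ h)
  rw [hj] at h3
  rw [Nat.cast_zero, s_zero] at h2
  rw [abs_of_nonneg (theta_nonneg 0 G x)] at h1
  have h4 := mul_le_of_le_one_left (abs_nonneg (theta e G' x - theta e G' y)) (theta_le_one 0 G x)
  have h5 := mul_le_mul_of_nonneg_left (h1.trans (add_le_add h4 le_rfl)) (x.σ_nonneg G.j)
  linarith

def LR : ℝ := 1 + (3 + s 1) * e1
lemma one_le_LR : 1 ≤ LR := by have := s_pos 1; have := e1_pos; unfold LR; nlinarith

lemma lip_root (ξ : H) {G G' : Cell} (hj : G'.j = G.j) {e : ℕ} (he : e ≤ 1) :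
    Lip (root ξ G G' e) (LR * ‖ξ‖) := by
  refine lip_of_le G.j fun x y hxy => ?_
  have h1 := abs_mul_sub_mul (a := inner ℝ ξ (x.u G.j)) (a' := inner ℝ ξ (y.u G.j))
    (b := theta 0 G x * theta e G' x) (mul_nonneg (theta_nonneg 0 G y) (theta_nonneg e G' y))
    (mul_le_one₀ (theta_le_one 0 G y) (theta_nonneg e G' y) (theta_le_one e G' y))
  have h2 := theta_mul_sharp hj e hxy
  have h3 : |inner ℝ ξ (x.u G.j)| ≤ ‖ξ‖ * x.σ G.j :=
    (abs_real_inner_le_norm _ _).trans (mul_le_mul_of_nonneg_left (x.norm_u_le _) (norm_nonneg _))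
  have h4 : |inner ℝ ξ (x.u G.j) - inner ℝ ξ (y.u G.j)| ≤ ‖ξ‖ * dist x y := by
    rw [← inner_sub_right]
    exact (abs_real_inner_le_norm _ _).trans
      (mul_le_mul_of_nonneg_left (x.u_sub_le y _) (norm_nonneg _))
  have h5 : s e ≤ s 1 := s_mono (by exact_mod_cast he)
  have h6 := mul_le_mul_of_nonneg_right h3
    (abs_nonneg (theta 0 G x * theta e G' x - theta 0 G y * theta e G' y))
  have h7 : (3 + s e) * e1 * dist x y ≤ (3 + s 1) * e1 * dist x y := by
    have := e1_pos; gcongr
  have h8 := mul_le_mul_of_nonneg_left (h2.trans h7) (norm_nonneg ξ)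
  unfold root LR
  nlinarith

inductive Mem : ℕ → (M → ℝ) → Prop
  | root {ξ : H} {G G' : Cell} {e : ℕ} (hξ : ‖ξ‖ ≤ 1) (hq : ∃ q, trunc q ξ = ξ) (hG : G.Valid)
      (hG' : G'.Valid) (hj : G'.j = G.j) (he : e ≤ 1) : Mem 0 (root ξ G G' e)
  | mono {d f} : Mem d f → Mem (d + 1) f
  | opA {d f} (e : ℕ) (G : Cell) (n n' : ℕ) (he : e ≤ d) (hG : G.Valid) :
      Mem d f → Mem (d + 1) (TA e G n n' f)
  | opB {d f} (m : ℕ) (c : M) (hc : c ∈ Cen m (muB m)) : Mem d f → Mem (d + 1) (TB m c f)

lemma Mem.mono' {d d' f} (h : Mem d f) (hd : d ≤ d') : Mem d' f := by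
  induction hd with
  | refl => exact h
  | step _ ih => exact ih.mono

def LD : ℕ → ℝ
  | 0 => LR
  | d + 1 => (3 + ∑ e ∈ Finset.range (d + 1), CA e) * LD d

lemma sumCA_nonneg (d) : 0 ≤ ∑ e ∈ Finset.range d, CA e :=
  Finset.sum_nonneg fun e _ => by linarith [CA_ge e]

lemma one_le_LD : ∀ d, 1 ≤ LD d
  | 0 => one_le_LR
  | d + 1 => by have := one_le_LD d; have := sumCA_nonneg (d + 1); unfold LD; nlinarith

lemma Mem.lip {d f} (h : Mem d f) : Lip f (LD d) := by
  induction h with
  | root hξ _ _ _ hj he =>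
    exact (lip_root _ hj he).mono (mul_le_of_le_one_right (by linarith [one_le_LR]) hξ)
  | @mono d f _ ih =>
    refine ih.mono ?_
    have := one_le_LD d; have := sumCA_nonneg (d + 1); rw [LD]; nlinarith
  | @opA d f e G n n' he _ _ ih =>
    have h0 : 0 ≤ LD d := by linarith [one_le_LD d]
    refine (lip_TA ih h0 e G n n').mono (mul_le_mul_of_nonneg_right ?_ h0)
    have := Finset.single_le_sum (f := CA) (s := Finset.range (d + 1))
      (fun e _ => by linarith [CA_ge e]) (Finset.mem_range.2 (Nat.lt_succ_of_le he))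
    linarith
  | @opB d f m c _ _ ih =>
    have h0 : 0 ≤ LD d := by linarith [one_le_LD d]
    exact (lip_TB ih h0 m c).mono (mul_le_mul_of_nonneg_right (by linarith [sumCA_nonneg (d + 1)]) h0)

def Dep (f : M → ℝ) : Prop := ∀ᶠ m in atTop, ∀ x, f (pr m x) = f x

lemma Mem.dep {d f} (h : Mem d f) : Dep f := by
  induction h with
  | @root ξ G G' e _ hq _ _ hj _ =>
    obtain ⟨q, hq⟩ := hq
    filter_upwards [eventually_gt_atTop G.j, eventually_ge_atTop q, eventually_ge_atTop (mL G.k),
      eventually_ge_atTop (mL G'.k)] with m h1 h2 h3 h4 x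
    rw [H1Lip.root, H1Lip.root, theta_pr h1 h3, theta_pr (hj ▸ h1) h4, pr_u, if_pos h1, inner_trunc, ← hq,
      (trunc_trunc h2 _).2]
  | mono _ ih => exact ih
  | opA e G n n' _ _ _ ih =>
    filter_upwards [ih, eventually_gt_atTop G.j, eventually_gt_atTop n',
      eventually_ge_atTop (mL G.k)] with m h1 h2 h3 h4 x
    rw [TA_apply, TA_apply, ← pr_kap, h1, h1, theta_pr h2 h4, omega, tail_pr h3, omega]
  | opB m c _ _ _ =>
    filter_upwards [eventually_ge_atTop m] with n h1 x
    rw [TB_apply, TB_apply, (pr_pr h1 x).1, eta, dm_pr h1, eta]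

inductive Cmb (d : ℕ) : ℝ → (M → ℝ) → Prop
  | nil {N} (h : 0 ≤ N) : Cmb d N 0
  | cons {N N' f g} (c : ℝ) (hg : Mem d g) (hf : Cmb d N f) (h : N + |c| ≤ N') :
      Cmb d N' (f + c • g)

namespace Cmb

lemma nonneg {d N f} (h : Cmb d N f) : 0 ≤ N := by
  induction h with
  | nil h => exact h
  | cons c _ _ h ih => linarith [abs_nonneg c]

lemma mono {d N N' f} (h : Cmb d N f) (hN : N ≤ N') : Cmb d N' f := by
  cases h with
  | nil h => exact nil (h.trans hN)
  | cons c hg hf h => exact cons c hg hf (h.trans hN)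

lemma of_mem {d g} (h : Mem d g) : Cmb d 1 g := by
  simpa using cons (N := 0) (N' := 1) 1 h (nil le_rfl) (by simp)

lemma add {d N N' f f'} (h : Cmb d N f) (h' : Cmb d N' f') : Cmb d (N + N') (f + f') := by
  induction h' with
  | nil h0 => simpa using h.mono (le_add_of_nonneg_right h0)
  | cons c hg _ h1 ih => rw [← add_assoc]; exact cons c hg ih (by linarith)

lemma map {d d' N f} (T : (M → ℝ) →ₗ[ℝ] (M → ℝ)) (hT : ∀ g, Mem d g → Mem d' (T g))
    (h : Cmb d N f) : Cmb d' N (T f) := by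
  induction h with
  | nil h0 => simpa using nil h0
  | cons c hg _ h1 ih => rw [map_add, map_smul]; exact cons c (hT _ hg) ih h1

lemma depth {d d' N f} (h : Cmb d N f) (hd : d ≤ d') : Cmb d' N f :=
  h.map LinearMap.id fun _ hg => hg.mono' hd

lemma smul {d N f} (a : ℝ) (h : Cmb d N f) : Cmb d (|a| * N) (a • f) := by
  induction h with
  | nil h0 => simpa using nil (mul_nonneg (abs_nonneg a) h0)
  | cons c hg _ h1 ih =>
    rw [smul_add, smul_smul]
    exact cons _ hg ih (by rw [abs_mul, ← mul_add]; exact mul_le_mul_of_nonneg_left h1 (abs_nonneg _))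

lemma sub {d N N' f f'} (h : Cmb d N f) (h' : Cmb d N' f') : Cmb d (N + N') (f - f') := by
  simpa [sub_eq_add_neg] using h.add (h'.smul (-1))

lemma sum {d : ℕ} {K : ℝ} {ι : Type} (A : Finset ι) {f : ι → M → ℝ} (h : ∀ i ∈ A, Cmb d K (f i)) :
    Cmb d (A.card * K) (∑ i ∈ A, f i) := by
  classical
  induction A using Finset.induction_on with
  | empty => simpa using nil le_rfl
  | insert a A ha ih =>
    rw [Finset.sum_insert ha, Finset.card_insert_of_notMem ha]
    have := (h a (Finset.mem_insert_self _ _)).add (ih fun i hi => h i (Finset.mem_insert_of_mem hi))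
    exact this.mono (le_of_eq (by push_cast; ring))

lemma bound {d N f} (z : (M → ℝ) →ₗ[ℝ] ℝ) {a : ℝ} (ha : 0 ≤ a) (hz : ∀ g, Mem d g → |z g| ≤ a)
    (h : Cmb d N f) : |z f| ≤ N * a := by
  induction h with
  | nil h0 => simpa using mul_nonneg h0 ha
  | cons c hg _ h1 ih =>
    rw [map_add, map_smul, smul_eq_mul]
    refine (abs_add_le _ _).trans ?_
    rw [abs_mul]
    nlinarith [mul_le_mul_of_nonneg_left (hz _ hg) (abs_nonneg c)]

lemma lip {d N f} (h : Cmb d N f) : Lip f (N * LD d) := fun x y => by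
  have := h.bound ((LinearMap.proj x : (M → ℝ) →ₗ[ℝ] ℝ) - LinearMap.proj y)
    (a := LD d * dist x y) (mul_nonneg (by linarith [one_le_LD d]) dist_nonneg)
    fun g hg => hg.lip x y
  rw [mul_assoc]; exact this

lemma dep {d N f} (h : Cmb d N f) : Dep f := by
  induction h with
  | nil _ => exact Eventually.of_forall fun _ _ => rfl
  | cons c hg _ _ ih =>
    filter_upwards [ih, hg.dep] with m h1 h2 x
    simp only [Pi.add_apply, Pi.smul_apply, h1, h2]

end Cmb

end Crest.Agent.H1Lip
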