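import Crest.Agent.H1Lip.Read

/-! The key estimate and the fixed points. -/

set_option autoImplicit false

open Set Filter Metric Topology
open scoped ZeroAtInfty ENNReal

noncomputable section

namespace Crest.Agent.H1Lip

structure Rdr (j : ℕ) (R : M → M → L → H) : Prop where
  sub : ∀ x x' g g', R x x' (g - g') = R x x' g - R x x' g'
  le : ∀ x x' g, ‖R x x' g‖ ≤ ‖g‖
  near : ∀ x x' y, Near j x y → R x x' (phL j y) = y.u j
  self : ∀ x x', R x x' (phL j x) = x.u j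
  tv : ∀ {x x' y y' : M} {m : ℝ}, 0 < m → m ≤ x.σ j → m ≤ y.σ j → m ≤ x'.σ j → m ≤ y'.σ j →
    ∀ g, ‖R x x' g - R y y' g‖ ≤ 2 * ‖g‖ * (2 * (e1 * dist x y / m) + 2 * (e1 * dist x' y' / m))

lemma rdr_left (j : ℕ) : Rdr j (rd j) :=
  ⟨rd_sub j, norm_rd_le j, fun _ x' _ h => h.rd_left x', rd_self_left j, rd_tv⟩

lemma rdr_right (j : ℕ) : Rdr j fun x x' => rd j x' x :=
  ⟨fun x x' => rd_sub j x' x, fun x x' => norm_rd_le j x' x, fun _ x' _ h => h.rd_right x',
    fun x x' => rd_self_right j x' x, fun hm h1 h2 h3 h4 g => by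
      rw [add_comm]; exact rd_tv hm h3 h4 h1 h2 g⟩

lemma Rdr.half {j R} (hR : Rdr j R) {x x' y y' : M} {g : L} {h D : ℝ} (h1 : h ≤ x.σ j)
    (h2 : h ≤ x'.σ j) (h3 : ‖g - phL j x‖ ≤ 1000 * h) (hD : dist x y ≤ D) (hD' : dist x' y' ≤ D)
    (hc : x.σ j ≤ e1 * D ∨ (Near j y x ∧ h ≤ y.σ j ∧ h ≤ y'.σ j)) :
    ‖R x x' g - R y y' g‖ ≤ D / 1000 := by
  have hD0 : 0 ≤ D := dist_nonneg.trans hD
  rcases hc with hc | ⟨hn, h4, h5⟩
  · have h6 := norm_le_norm_add_norm_sub' g (phL j x)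
    have h7 := (norm_phL_le j x).trans (x.norm_u_le j)
    rw [e1_eq] at hc
    linarith [norm_sub_le (R x x' g) (R y y' g), hR.le x x' g, hR.le y y' g]
  · have e : R x x' g - R y y' g = R x x' (g - phL j x) - R y y' (g - phL j x) := by
      rw [hR.sub, hR.sub, hR.self, hR.near _ _ _ hn, sub_sub_sub_cancel_right]
    rw [e]
    rcases le_or_gt h 0 with h0 | h0
    · linarith [norm_sub_le (R x x' (g - phL j x)) (R y y' (g - phL j x)), hR.le x x' (g - phL j x),
        hR.le y y' (g - phL j x)]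
    · have he := e1_pos
      refine (hR.tv h0 h1 h4 h2 h5 _).trans ?_
      calc _ ≤ 2 * (1000 * h) * (2 * (e1 * D / h) + 2 * (e1 * D / h)) := by gcongr
        _ = 8000 * e1 * D := by field_simp; ring
        _ ≤ _ := by rw [e1_eq]; linarith

/-- The key estimate. -/
theorem Rdr.key {j R} (hR : Rdr j R) {x x' y y' : M} {g g' : L} {h h' D : ℝ} (h1 : h ≤ x.σ j)
    (h2 : h ≤ x'.σ j) (h3 : ‖g - phL j x‖ ≤ 1000 * h) (h1' : h' ≤ y.σ j)
    (h2' : h' ≤ y'.σ j) (h3' : ‖g' - phL j y‖ ≤ 1000 * h') (hD : dist x y ≤ D)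
    (hD' : dist x' y' ≤ D) : ‖R x x' g - R y y' g'‖ ≤ ‖g - g'‖ + D / 1000 := by
  have A : ‖R x x' g - R y y' g‖ ≤ D / 1000 → ‖R x x' g - R y y' g'‖ ≤ ‖g - g'‖ + D / 1000 :=
    fun h => by
      have := hR.le y y' (g - g')
      rw [hR.sub] at this
      linarith [norm_sub_le_norm_sub_add_norm_sub (R x x' g) (R y y' g) (R y y' g')]
  have A' : ‖R y y' g' - R x x' g'‖ ≤ D / 1000 → ‖R x x' g - R y y' g'‖ ≤ ‖g - g'‖ + D / 1000 :=
    fun h => by
      have := hR.le x x' (g - g')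
      rw [hR.sub] at this
      rw [norm_sub_rev] at h
      linarith [norm_sub_le_norm_sub_add_norm_sub (R x x' g) (R x x' g') (R y y' g')]
  have hE : dist y x ≤ D := dist_comm x y ▸ hD
  have hE' : dist y' x' ≤ D := dist_comm x' y' ▸ hD'
  by_cases c1 : x.σ j ≤ e1 * D
  · exact A (hR.half h1 h2 h3 hD hD' (Or.inl c1))
  by_cases c2 : y.σ j ≤ e1 * D
  · exact A' (hR.half h1' h2' h3' hE hE' (Or.inl c2))
  have a1 := mul_le_mul_of_nonneg_left hD e1_pos.le
  have a2 := mul_le_mul_of_nonneg_left hE e1_pos.le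
  have a3 : 0 ≤ e1 * dist x y := mul_nonneg e1_pos.le dist_nonneg
  push Not at c1 c2
  rcases le_total h h' with c | c
  · exact A (hR.half h1 h2 h3 hD hD' (Or.inr ⟨⟨by linarith, by linarith, by linarith, by linarith⟩,
      c.trans h1', c.trans h2'⟩))
  · exact A' (hR.half h1' h2' h3' hE hE' (Or.inr ⟨⟨by linarith, by linarith, by linarith,
      by linarith⟩, c.trans h1, c.trans h2⟩))

abbrev E : Type := C₀(ℕ, H)
abbrev C0 : Type := C₀(ℕ, ℝ)

def hat (C : E) (h : C0) : M :=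
  M.mk' C (fun j => ‖C j‖ + |h j|) (fun j => le_add_of_nonneg_right (abs_nonneg _))
    (by simpa using (c0_tendsto C).norm.add (c0_tendsto h).abs)

lemma hat_u (C h j) : (hat C h).u j = C j := rfl
lemma le_hat_σ (C : E) (h : C0) (j) : h j ≤ (hat C h).σ j :=
  (le_abs_self _).trans (le_add_of_nonneg_left (norm_nonneg _))

lemma dist_hat (C C' : E) (h h' : C0) : dist (hat C h) (hat C' h') ≤ ‖C - C'‖ + ‖h - h'‖ := by
  refine M.dist_le (by positivity) (fun j => ?_) fun j => ?_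
  · exact (c0_sub_le C C' j).trans (le_add_of_nonneg_right (norm_nonneg _))
  · change |‖C j‖ + |h j| - (‖C' j‖ + |h' j|)| ≤ _
    rw [add_sub_add_comm]
    exact (abs_add_le _ _).trans (add_le_add ((abs_norm_sub_norm_le _ _).trans (c0_sub_le C C' j))
      ((abs_abs_sub_abs_le _ _).trans (c0_sub_le h h' j)))

lemma phL_lip (j) (x y : M) : ‖phL j x - phL j y‖ ≤ (1 + 1 / 1000) * dist x y :=
  lp.norm_le_of_forall_le (by positivity) fun p => ph_lip j p x y

lemma exists_fixed {X : Type} [NormedAddCommGroup X] [CompleteSpace X] (T : X → X)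
    (h : ∀ a b, ‖T a - T b‖ ≤ 1 / 2 * ‖a - b‖) : ∃ a, T a = a := by
  have : ContractingWith (1 / 2) T := ⟨by norm_num, LipschitzWith.of_dist_le_mul fun a b => by
    simpa [dist_eq_norm] using h a b⟩
  exact ⟨_, this.fixedPoint_isFixedPt⟩

def HEq' (g : ℕ → L) (C : E) (h : C0) : Prop := ∀ j, h j = ‖g j - phL j (hat C h)‖ / 1000

lemma aux_norm (j : ℕ) (g : L) (x y : M) :
    ‖‖g - phL j x‖ / 1000 - ‖g - phL j y‖ / 1000‖ ≤ 2 / 1000 * dist x y := by
  have h1 := abs_norm_sub_norm_le (g - phL j x) (g - phL j y)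
  rw [sub_sub_sub_cancel_left, norm_sub_rev (phL j y)] at h1
  rw [← sub_div, Real.norm_eq_abs, abs_div, abs_of_pos (by norm_num : (0 : ℝ) < 1000)]
  linarith [phL_lip j x y, dist_nonneg (x := x) (y := y)]

lemma exists_h {g : ℕ → L} (hg : Tendsto g atTop (𝓝 0)) (C : E) : ∃ h, HEq' g C h := by
  have ht : ∀ x : M, Tendsto (fun j => ‖g j - phL j x‖ / 1000) atTop (𝓝 0) := fun x => by
    have : Tendsto (fun j => phL j x) atTop (𝓝 0) :=
      squeeze_zero_norm (fun j => norm_phL_le j x) (by simpa using x.u_tendsto.norm)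
    simpa using (hg.sub this).norm.div_const 1000
  obtain ⟨h, hh⟩ := exists_fixed (fun h : C0 => mk0 _ (ht (hat C h))) fun a b =>
    c0_norm_le (by positivity) fun j => (aux_norm j (g j) _ _).trans (by
      have := dist_hat C C a b
      rw [sub_self, norm_zero] at this
      linarith [norm_nonneg (a - b)])
  exact ⟨h, fun j => (congrArg (fun f : C0 => f j) hh).symm⟩

/-- A solution of the reading problem. -/
def Sol (R : ℕ → M → M → L → H) (g : ℕ → L) (C P : E) (h : C0) : Prop :=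
  HEq' g C h ∧ ∀ j, C j = R j (hat C h) (hat P h) (g j)

lemma key_hat {j R} (hR : Rdr j R) {g g' : ℕ → L} {C C' : E} {h h' : C0} (h1 : HEq' g C h)
    (h2 : HEq' g' C' h') (P P' : E) :
    ‖R (hat C h) (hat P h) (g j) - R (hat C' h') (hat P' h') (g' j)‖ ≤
      ‖g j - g' j‖ + (max ‖C - C'‖ ‖P - P'‖ + ‖h - h'‖) / 1000 :=
  hR.key (le_hat_σ C h j) (le_hat_σ P h j) (by rw [h1 j]; linarith) (le_hat_σ C' h' j)
    (le_hat_σ P' h' j) (by rw [h2 j]; linarith)
    ((dist_hat _ _ _ _).trans (add_le_add (le_max_left _ _) le_rfl))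
    ((dist_hat _ _ _ _).trans (add_le_add (le_max_right _ _) le_rfl))

theorem exists_sol {R : ℕ → M → M → L → H} (hR : ∀ j, Rdr j (R j)) {g : ℕ → L}
    (hg : Tendsto g atTop (𝓝 0)) (π : E → E) (hπ : ∀ C C', ‖π C - π C'‖ ≤ ‖C - C'‖) :
    ∃ C h, Sol R g C (π C) h := by
  choose h hh using exists_h hg
  have h1 : ∀ C C', ‖h C - h C'‖ ≤ ‖C - C'‖ := fun C C' => by
    have := c0_norm_le (f := h C - h C') (C := 2 / 1000 * (‖C - C'‖ + ‖h C - h C'‖))
      (by positivity) fun j => by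
        change ‖h C j - h C' j‖ ≤ _
        rw [hh C j, hh C' j]
        exact (aux_norm j _ _ _).trans (mul_le_mul_of_nonneg_left (dist_hat _ _ _ _) (by norm_num))
    linarith [norm_nonneg (C - C')]
  obtain ⟨C, hC⟩ := exists_fixed (fun C : E => mk0 (fun j => R j (hat C (h C)) (hat (π C) (h C)) (g j))
    (squeeze_zero_norm (fun j => (hR j).le _ _ _) (by simpa using hg.norm))) fun a b =>
    c0_norm_le (by positivity) fun j => (key_hat (hR j) (hh a) (hh b) (π a) (π b)).trans (by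
      rw [sub_self, norm_zero, max_eq_left (hπ a b)]
      linarith [norm_nonneg (a - b), h1 a b])
  exact ⟨C, h C, hh C, fun j => (congrArg (fun f : E => f j) hC).symm⟩

theorem Sol.est {R : ℕ → M → M → L → H} (hR : ∀ j, Rdr j (R j)) {g g' : ℕ → L} {C C' P P' : E}
    {h h' : C0} (h1 : Sol R g C P h) (h2 : Sol R g' C' P' h') {a : ℝ} (ha : ∀ j, ‖g j - g' j‖ ≤ a) :
    ‖C - C'‖ ≤ a + (max ‖C - C'‖ ‖P - P'‖ + ‖h - h'‖) / 1000 :=
  c0_norm_le (add_nonneg ((norm_nonneg _).trans (ha 0)) (by positivity)) fun j => by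
    change ‖C j - C' j‖ ≤ _
    rw [h1.2 j, h2.2 j]
    exact (key_hat (hR j) h1.1 h2.1 P P').trans (add_le_add (ha j) le_rfl)

end Crest.Agent.H1Lip
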