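import Crest.Agent.H1Lip.Big

/-! The space `ZS` contains no seminormalised weakly unconditionally Cauchy sequence. -/

set_option autoImplicit false

open Set Filter Metric Topology
open scoped ZeroAtInfty ENNReal

noncomputable section

namespace Crest.Agent.H1Lip

def ev : (M →₀ ℝ) →ₗ[ℝ] Fn :=
  Finsupp.linearCombination ℝ fun x => (LinearMap.proj x : Fn) - LinearMap.proj M.zero

def emb : (M →₀ ℝ) →ₗ[ℝ] B := Finsupp.linearCombination ℝ dl

lemma ev_single (x : M) (a : ℝ) (f : M → ℝ) : ev (Finsupp.single x a) f = a * (f x - f M.zero) := by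
  simp [ev]

lemma emb_single (x : M) (a : ℝ) : emb (Finsupp.single x a) = a • dl x := by simp [emb]

lemma FS_ev (c : M →₀ ℝ) : FS (ev c) := by
  classical
  refine ⟨insert M.zero c.support, ∑ x ∈ c.support, |c x| * 2, by positivity, fun f a ha hf => ?_⟩
  rw [ev, Finsupp.linearCombination_apply, Finsupp.sum, LinearMap.sum_apply, Finset.sum_mul]
  refine (Finset.abs_sum_le_sum_abs _ _).trans (Finset.sum_le_sum fun x hx => ?_)
  simp only [LinearMap.smul_apply, LinearMap.sub_apply, LinearMap.proj_apply, smul_eq_mul, abs_mul,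
    mul_assoc]
  refine mul_le_mul_of_nonneg_left ((abs_sub _ _).trans ?_) (abs_nonneg _)
  linarith [hf x (Finset.mem_insert_of_mem hx), hf _ (Finset.mem_insert_self _ _)]

lemma emb_snd (c : M →₀ ℝ) (k : ℕ) (f : F k) : (emb c).2 k f = wk k * ev c f.1 := by
  induction c using Finsupp.induction_linear with
  | zero => rw [map_zero, map_zero, LinearMap.zero_apply, mul_zero]; rfl
  | add a b ha hb => rw [map_add, map_add, LinearMap.add_apply, mul_add, ← ha, ← hb]; rfl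
  | single x a =>
    rw [emb_single, ev_single]
    change a * (wk k * (f.1 x - f.1 M.zero)) = _
    ring

lemma theta_mul_succ (G x) : theta 0 G x * theta 1 G x = theta 0 G x := by
  by_cases h : theta 0 G x = 0
  · rw [h, zero_mul]
  · rw [theta_succ h, mul_one]

lemma emb_fst (c : M →₀ ℝ) (j : ℕ) (p : I × I) (ξ : H) : inner ℝ ξ ((emb c).1 j p) =
    ev c (root ξ (cell j p.1) (cell j p.1) 1) + ev c (root ξ (cell j p.2) (cell j p.2) 1) -
      ev c (root ξ (cell j p.1) (cell j p.2) 0) := by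
  induction c using Finsupp.induction_linear with
  | zero =>
    simp only [map_zero, LinearMap.zero_apply, add_zero, sub_zero]
    exact inner_zero_right _
  | add a b ha hb =>
    simp only [map_add, LinearMap.add_apply]
    change inner ℝ ξ ((emb a).1 j p + (emb b).1 j p) = _
    rw [inner_add_right, ha, hb]; ring
  | single x a =>
    rw [emb_single]
    change inner ℝ ξ (a • ph j p x) = _
    have h0 : ∀ j, M.zero.u j = 0 := fun _ => rfl
    simp only [ev_single, root, theta_mul_succ, h0, inner_zero_right, ph, real_inner_smul_right, Th]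
    simp only [cell]
    ring

lemma W_of_wuc {c : ℕ → M →₀ ℝ} {C : ℝ}
    (h : ∀ (A : Finset ℕ) (ε : ℕ → ℝ), (∀ i, |ε i| ≤ 1) → ‖∑ i ∈ A, ε i • emb (c i)‖ ≤ C) :
    W fun i => ev (c i) := fun d => by
  have hC : 0 ≤ C := (norm_nonneg _).trans (h ∅ 0 (by simp))
  refine ⟨C * 2 ^ (d + 2), fun N hN f hf hl A ε hε => ?_⟩
  obtain ⟨n, h1, h2⟩ := exists_nat_pow_near hN (show (1 : ℝ) < 4 by norm_num)
  set g : F (n + 1 + d) := ⟨f, (hf.depth (by omega)).mono
    (h2.le.trans (pow_le_pow_right₀ (by norm_num) (by omega))), hl⟩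
  have h3 := emb_snd (∑ i ∈ A, ε i • c i) (n + 1 + d) g
  have h4 : ‖(emb (∑ i ∈ A, ε i • c i)).2 (n + 1 + d) g‖ ≤ C :=
    (lp.norm_apply_le_norm (by simp) _ _).trans ((lp.norm_apply_le_norm (by simp) _ _).trans
      ((norm_snd_le _).trans (by simpa only [map_sum, map_smul] using h A ε hε)))
  rw [h3, norm_mul, Real.norm_of_nonneg (wk_pos _).le, Real.norm_eq_abs] at h4
  simp only [map_sum, map_smul, LinearMap.sum_apply, LinearMap.smul_apply, smul_eq_mul] at h4
  have h5 : (2 : ℝ) ^ n ≤ √N := Real.le_sqrt_of_sq_le (by rw [← pow_mul, mul_comm, pow_mul]; norm_num [h1])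
  have h6 : wk (n + 1 + d) * (2 ^ (d + 2) * 2 ^ n) = 1 := by
    rw [wk, ← pow_add, show d + 2 + n = n + 1 + d + 1 by omega, ← mul_pow]; norm_num
  calc _ = wk (n + 1 + d) * |∑ i ∈ A, ε i * ev (c i) f| * (2 ^ (d + 2) * 2 ^ n) := by
        rw [mul_right_comm, h6, one_mul]
    _ ≤ C * (2 ^ (d + 2) * √N) := by gcongr
    _ = _ := by ring

lemma unif {z : ℕ → Fn} (hW : W z) (hz : ∀ i, FS (z i)) (d : ℕ) {a : ℝ} (ha : 0 < a) :
    ∀ᶠ i in U, ∀ g, Mem d g → |z i g| ≤ a := by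
  by_contra hc
  have : ∀ i, ∃ g, ¬ (∀ g, Mem d g → |z i g| ≤ a) → Mem d g ∧ a < |z i g| := fun i => by
    by_cases hi : ∀ g, Mem d g → |z i g| ≤ a
    · exact ⟨0, fun h => absurd hi h⟩
    · push Not at hi; obtain ⟨g, hg⟩ := hi; exact ⟨g, fun _ => hg⟩
  choose g hg using this
  have h1 := (U_not hc).mono hg
  obtain ⟨i, h2, h3⟩ := (h1.and (Metric.tendsto_nhds.1 (Pd d hW hz (h1.mono fun _ h => h.1)) a ha)).exists
  rw [Real.dist_eq, sub_zero] at h3
  linarith [h2.2]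

lemma norm_le_of_FR {v : H} {a : ℝ} (ha : 0 ≤ a)
    (h : ∀ ξ : H, ‖ξ‖ ≤ 1 → (∃ q, trunc q ξ = ξ) → |inner ℝ ξ v| ≤ a) : ‖v‖ ≤ a := by
  rcases eq_or_ne v 0 with rfl | h0
  · simpa
  have hn : 0 < ‖v‖ := norm_pos_iff.2 h0
  have h1 : Tendsto (fun q => |inner ℝ (trunc q (‖v‖⁻¹ • v)) v|) atTop
      (𝓝 |inner ℝ (‖v‖⁻¹ • v) v|) := ((tendsto_trunc _).inner tendsto_const_nhds).abs
  have h2 := le_of_tendsto' h1 fun q => h _ ((norm_trunc_le _ _).trans (by
    rw [norm_smul, norm_inv, norm_norm, inv_mul_cancel₀ hn.ne'])) ⟨q, (trunc_trunc le_rfl _).1⟩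
  rwa [real_inner_smul_left, real_inner_self_eq_norm_sq, abs_of_pos (by positivity), sq,
    inv_mul_cancel_left₀ hn.ne'] at h2

lemma avg_signs {V : ℕ → Type} [∀ k, NormedAddCommGroup (V k)] [∀ k, NormedSpace ℝ (V k)]
    (v : ∀ k, ℕ → V k) (K : Finset ℕ) (i : ℕ → ℕ) :
    ∃ (A : Finset ℕ) (ε : ℕ → ℝ), (∀ l, |ε l| ≤ 1) ∧
      ∑ k ∈ K, ‖v k (i k)‖ ≤ ∑ k ∈ K, ‖∑ l ∈ A, ε l • v k l‖ := by
  classical
  set A := K.image i
  set e : (A → ℤˣ) → ℕ → ℝ := fun τ l => if h : l ∈ A then ((τ ⟨l, h⟩ : ℤ) : ℝ) else 0 with he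
  have he1 : ∀ τ l, l ∈ A → |e τ l| = 1 := fun τ l hl => by
    simp only [he, dif_pos hl]; rcases Int.units_eq_one_or (τ ⟨l, hl⟩) with h | h <;> simp [h]
  have key : ∀ k ∈ K, ∑ _τ : A → ℤˣ, ‖v k (i k)‖ ≤ ∑ τ : A → ℤˣ, ‖∑ l ∈ A, e τ l • v k l‖ := by
    intro k hk
    have hi : i k ∈ A := Finset.mem_image_of_mem i hk
    set fl : (A → ℤˣ) → A → ℤˣ := fun τ l => if l.1 = i k then τ l else -τ l with hfl
    have hinv : Function.Involutive fl := fun τ => by
      ext l; simp only [hfl]; split_ifs <;> simp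
    have h1 := Equiv.sum_comp hinv.toPerm fun τ => ‖∑ l ∈ A, e τ l • v k l‖
    have h2 : ∀ τ, 2 * ‖v k (i k)‖ ≤ ‖∑ l ∈ A, e (fl τ) l • v k l‖ + ‖∑ l ∈ A, e τ l • v k l‖ := by
      intro τ
      refine le_trans (le_of_eq ?_) (norm_add_le _ _)
      rw [← Finset.sum_add_distrib, Finset.sum_eq_single_of_mem (i k) hi fun l hl hne => by
        simp [he, hfl, hl, hne]]
      have : e (fl τ) (i k) = e τ (i k) := by simp [he, hfl, hi]
      rw [this, ← add_smul, norm_smul, Real.norm_eq_abs, ← two_mul, abs_mul, he1 τ _ hi]; simp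
    have h3 := Finset.sum_le_sum fun τ (_ : τ ∈ Finset.univ) => h2 τ
    rw [Finset.sum_add_distrib, ← Finset.mul_sum] at h3
    simp only [Function.Involutive.coe_toPerm] at h1
    linarith
  have h4 := Finset.sum_le_sum key
  rw [Finset.sum_comm, Finset.sum_comm (s := K)] at h4
  obtain ⟨τ, -, hτ⟩ := Finset.exists_le_of_sum_le Finset.univ_nonempty h4
  refine ⟨A, e τ, fun l => ?_, hτ⟩
  by_cases hl : l ∈ A
  · exact (he1 τ l hl).le
  · simp [he, hl]

lemma B2_sum_apply (A : Finset ℕ) (ε : ℕ → ℝ) (y : ℕ → B) (k : ℕ) :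
    (∑ l ∈ A, ε l • y l).2 k = ∑ l ∈ A, ε l • (y l).2 k := by
  rw [Prod.snd_sum, lp.coeFn_sum, Finset.sum_apply]; rfl

theorem emb_tendsto {c : ℕ → M →₀ ℝ} {C : ℝ}
    (h : ∀ (A : Finset ℕ) (ε : ℕ → ℝ), (∀ i, |ε i| ≤ 1) → ‖∑ i ∈ A, ε i • emb (c i)‖ ≤ C) :
    Tendsto (fun i => ‖emb (c i)‖) U (𝓝 0) := by
  have hW := W_of_wuc h
  have hz := fun i => FS_ev (c i)
  have h1 : Tendsto (fun i => ‖(emb (c i)).1‖) U (𝓝 0) := by
    refine Metric.tendsto_nhds.2 fun a ha => ?_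
    filter_upwards [unif hW hz 0 (a := a / 4) (by positivity)] with i hi
    rw [dist_zero_right, norm_norm]
    refine (c0_norm_le (C := 3 * (a / 4)) (by positivity) fun j =>
      lp.norm_le_of_forall_le (by positivity) fun p =>
        norm_le_of_FR (by positivity) fun ξ h1 h2 => ?_).trans_lt (by linarith)
    rw [emb_fst]
    have e1 := abs_le.1 (hi _ (Mem.root h1 h2 (cell_valid j p.1) (cell_valid j p.1) rfl le_rfl))
    have e2 := abs_le.1 (hi _ (Mem.root h1 h2 (cell_valid j p.2) (cell_valid j p.2) rfl le_rfl))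
    have e3 := abs_le.1 (hi _ (Mem.root h1 h2 (cell_valid j p.1) (cell_valid j p.2) rfl zero_le_one))
    rw [abs_le]; constructor <;> linarith
  have h2 : ∀ k, Tendsto (fun i => ‖(emb (c i)).2 k‖) U (𝓝 0) := fun k => by
    refine Metric.tendsto_nhds.2 fun a ha => ?_
    have hw := wk_pos k
    filter_upwards [unif hW hz k (a := a / (2 * wk k * 4 ^ k)) (by positivity)] with i hi
    rw [dist_zero_right, norm_norm]
    refine (lp.norm_le_of_forall_le (C := a / 2) (by positivity) fun f => ?_).trans_lt (by linarith)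
    rw [emb_snd, norm_mul, Real.norm_of_nonneg hw.le, Real.norm_eq_abs]
    refine (mul_le_mul_of_nonneg_left (f.2.1.bound _ (by positivity) hi) hw.le).trans (le_of_eq ?_)
    field_simp
  have hs : ∀ (y : B2) (K : Finset ℕ), ∑ k ∈ K, ‖y k‖ ≤ ‖y‖ := fun y K => by
    simpa using lp.sum_rpow_le_norm_rpow (p := 1) (by simp) y K
  have h3 : ∀ (K : Finset ℕ) (i : ℕ → ℕ), ∑ k ∈ K, ‖(emb (c (i k))).2 k‖ ≤ C := fun K i => by
    obtain ⟨A, ε, hε, h4⟩ := avg_signs (fun k l => (emb (c l)).2 k) K i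
    refine h4.trans (le_trans ?_ ((norm_snd_le _).trans (h A ε hε)))
    simpa only [B2_sum_apply] using hs (∑ l ∈ A, ε l • emb (c l)).2 K
  have hb : ∀ k, BddAbove (range fun i => ‖(emb (c i)).2 k‖) := fun k =>
    ⟨C, by rintro _ ⟨i, rfl⟩; simpa using h3 {k} fun _ => i⟩
  have h4 : Summable fun k => ⨆ i, ‖(emb (c i)).2 k‖ := by
    refine summable_of_sum_le (c := C + 1) (fun k => Real.iSup_nonneg fun _ => norm_nonneg _)
      fun K => ?_
    choose i hi using fun k => exists_lt_of_lt_ciSup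
      (sub_lt_self (⨆ i, ‖(emb (c i)).2 k‖) (wk_pos k))
    have h5 := Finset.sum_le_sum fun k (_ : k ∈ K) => (hi k).le
    rw [Finset.sum_sub_distrib] at h5
    linarith [h3 K i, sum_le_hasSum K (fun k _ => (wk_pos k).le) hasSum_wk]
  have h5 := tendsto_tsum_of_dominated_convergence (f := fun i k => ‖(emb (c i)).2 k‖) h4 h2
    (Eventually.of_forall fun i k => by rw [norm_norm]; exact le_ciSup (hb k) i)
  have h6 : ∀ y : B2, ‖y‖ = ∑' k, ‖y k‖ := fun y => by
    simpa using lp.norm_eq_tsum_rpow (p := 1) (by simp) y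
  simp only [tsum_zero, ← h6] at h5
  simpa only [max_self, ← Prod.norm_def] using h1.max h5

lemma smul_aux {V : Type} [AddCommGroup V] [Module ℝ V] (a : ℝ) (x y : V) :
    a • y = a • x - a • (x - y) := by rw [← smul_sub, sub_sub_cancel]

theorem no_wuc {x : ℕ → B} (hx : ∀ i, x i ∈ ZS) {C δ : ℝ} (hδ : 0 < δ) (h1 : ∀ i, δ ≤ ‖x i‖)
    (h2 : ∀ (A : Finset ℕ) (ε : ℕ → ℝ), (∀ i, |ε i| ≤ 1) → ‖∑ i ∈ A, ε i • x i‖ ≤ C) : False := by
  have : ∀ i, ∃ c, ‖x i - emb c‖ ≤ δ / 2 * wk i := fun i => by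
    obtain ⟨y, hy, hy'⟩ := Metric.mem_closure_iff.1 (hx i) (δ / 2 * wk i)
      (mul_pos (half_pos hδ) (wk_pos i))
    rw [SetLike.mem_coe, ← Finsupp.range_linearCombination] at hy
    obtain ⟨c, rfl⟩ := hy
    exact ⟨c, by rw [← dist_eq_norm]; exact hy'.le⟩
  choose c hc using this
  have h3 := emb_tendsto (c := c) (C := C + δ / 2) fun A ε hε => by
    have e : ∑ i ∈ A, ε i • emb (c i) = ∑ i ∈ A, ε i • x i - ∑ i ∈ A, ε i • (x i - emb (c i)) := by
      rw [← Finset.sum_sub_distrib]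
      exact Finset.sum_congr rfl fun i _ => smul_aux (V := B) _ _ _
    rw [e]
    refine (norm_sub_le _ _).trans (add_le_add (h2 A ε hε) ((norm_sum_le _ _).trans ?_))
    calc _ ≤ ∑ i ∈ A, δ / 2 * wk i := Finset.sum_le_sum fun i _ => by
          rw [norm_smul]
          exact (mul_le_of_le_one_left (norm_nonneg _) (hε i)).trans (hc i)
      _ ≤ δ / 2 * 1 := by
          rw [← Finset.mul_sum]
          exact mul_le_mul_of_nonneg_left (sum_le_hasSum A (fun k _ => (wk_pos k).le) hasSum_wk)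
            (half_pos hδ).le
      _ = _ := mul_one _
  obtain ⟨i, hi⟩ := (h3.eventually (eventually_lt_nhds (half_pos hδ))).exists
  have h4 : wk i ≤ 1 := le_hasSum hasSum_wk i fun k _ => (wk_pos k).le
  nlinarith [h1 i, hc i, norm_le_norm_add_norm_sub' (x i) (emb (c i))]

end Crest.Agent.H1Lip
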