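import Crest.Agent.H1Lip.Psi
import Crest.Agent.H1Lip.Free

/-! The counterexample. -/

set_option autoImplicit false

open Set Filter Metric Topology
open scoped ZeroAtInfty ENNReal

noncomputable section

namespace Crest.Agent.H1Lip

/-- The target space. -/
def Z : Type := ZS

instance : NormedAddCommGroup Z := inferInstanceAs (NormedAddCommGroup ZS)
instance : NormedSpace ℝ Z := inferInstanceAs (NormedSpace ℝ ZS)
instance : CompleteSpace Z := inferInstanceAs (CompleteSpace ZS)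
instance : TopologicalSpace.SeparableSpace Z := inferInstanceAs (TopologicalSpace.SeparableSpace ZS)

def Z.val : Z →ₗᵢ[ℝ] B := ZS.subtypeₗᵢ

lemma Z.val_mem (z : Z) : Z.val z ∈ ZS := Subtype.property z

def pjZ (j : ℕ) : Z →+ L where
  toFun v := (Z.val v).1 j
  map_zero' := rfl
  map_add' _ _ := rfl

def dZ (x : M) : Z := (⟨dl x, dl_mem x⟩ : ZS)

lemma setupZ : Setup pjZ dZ where
  le j v := (c0_apply_le _ j).trans ((norm_fst_le _).trans (Z.val.norm_map v).le)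
  tend v := c0_tendsto (Z.val v).1
  dl _ _ := rfl
  lip x y := dl_lip x y

theorem no_emb {β : Type} [NormedAddCommGroup β] [NormedSpace ℝ β] {v : β} (hv : ‖v‖ = 1)
    (T : C₀(ℕ, β) →L[ℝ] Z) {K : ℝ} (hK : ∀ a, ‖a‖ ≤ K * ‖T a‖) : False := by
  have h1 : ∀ i, 1 ≤ K * ‖T (sg i v)‖ := fun i => by
    refine le_trans ?_ (hK _)
    simpa [sg_apply, hv] using c0_apply_le (sg i v) i
  have hK0 : 0 < K := by
    by_contra h; nlinarith [h1 0, norm_nonneg (T (sg 0 v))]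
  refine no_wuc (x := fun i => Z.val (T (sg i v))) (fun i => Z.val_mem _) (C := ‖T‖ * 1)
    (δ := K⁻¹) (inv_pos.2 hK0) (fun i => ?_) fun A ε hε => ?_
  · rw [Z.val.norm_map, inv_le_iff_one_le_mul₀' hK0]; exact h1 i
  · have e : ∑ i ∈ A, ε i • Z.val (T (sg i v)) = Z.val (T (∑ i ∈ A, ε i • sg i v)) := by
      rw [map_sum, map_sum]
      exact Finset.sum_congr rfl fun i _ => by rw [map_smul, map_smul]
    rw [e, Z.val.norm_map]
    refine T.le_opNorm_of_le (c0_norm_le zero_le_one fun l => ?_)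
    rw [c0_sum_apply]
    change ‖∑ i ∈ A, ε i • sg i v l‖ ≤ 1
    simp only [sg_apply, smul_ite, smul_zero, Finset.sum_ite_eq]
    split_ifs
    · rw [norm_smul, hv, mul_one]; exact hε l
    · simp

theorem no_sub {β : Type} [NormedAddCommGroup β] [NormedSpace ℝ β] {v : β} (hv : ‖v‖ = 1)
    (S : Submodule ℝ Z) : IsEmpty (S ≃L[ℝ] C₀(ℕ, β)) := ⟨fun φ =>
  no_emb hv (S.subtypeL.comp φ.symm.toContinuousLinearMap) (K := ‖φ.toContinuousLinearMap‖) fun a => by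
    simpa using φ.toContinuousLinearMap.le_opNorm (φ.symm a)⟩

lemma norm_e0 : ‖(lp.single 2 0 1 : H)‖ = 1 := by rw [lp.norm_single (by norm_num)]; simp

theorem no_equiv : IsEmpty ((E × Z) ≃L[ℝ] Z) := ⟨fun φ =>
  no_emb norm_e0 (φ.toContinuousLinearMap.comp (ContinuousLinearMap.inl ℝ E Z))
    (K := ‖φ.symm.toContinuousLinearMap‖) fun a => by
      simpa using φ.symm.toContinuousLinearMap.le_opNorm (φ (a, 0))⟩

def tl (v : H) : H :=
  ⟨fun n => v (n + 1), memℓp_gen ((summable_nat_add_iff (f := fun n => ‖v n‖ ^ (2 : ℝ≥0∞).toReal) 1).2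
    (v.2.summable (by norm_num)))⟩

def consF (r : ℝ) (v : H) : ℕ → ℝ
  | 0 => r
  | m + 1 => v m

def cons (r : ℝ) (v : H) : H :=
  ⟨consF r v, memℓp_gen
    ((summable_nat_add_iff (f := fun n => ‖consF r v n‖ ^ (2 : ℝ≥0∞).toReal) 1).1
      (v.2.summable (by norm_num)))⟩

lemma cons_tl (v : H) : cons (v 0) (tl v) = v := by ext n; cases n <;> rfl

lemma cons_sub (r r' : ℝ) (v v' : H) : cons r v - cons r' v' = cons (r - r') (v - v') := by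
  ext n; cases n <;> rfl

lemma norm_cons (r : ℝ) (v : H) : ‖cons r v‖ ^ 2 = r ^ 2 + ‖v‖ ^ 2 := by
  have h1 := lp.norm_rpow_eq_tsum (p := 2) (by norm_num) (cons r v)
  have h2 := lp.norm_rpow_eq_tsum (p := 2) (by norm_num) v
  rw [((cons r v).2.summable (by norm_num)).tsum_eq_zero_add] at h1
  change _ = ‖r‖ ^ _ + ∑' n, ‖v n‖ ^ _ at h1
  rw [← h2] at h1
  simpa using h1

lemma cons_le (r : ℝ) (v : H) : ‖cons r v‖ ≤ |r| + ‖v‖ ∧ |r| ≤ ‖cons r v‖ ∧ ‖v‖ ≤ ‖cons r v‖ := by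
  have h := norm_cons r v
  rw [← sq_abs r] at h
  refine ⟨?_, ?_, ?_⟩ <;> refine abs_le_of_sq_le_sq' ?_ (by positivity) |>.2 <;>
    nlinarith [abs_nonneg r, norm_nonneg v]

def consE (a : C0) (c : E) : E := mk0 (fun j => cons (a j) (c j))
  (squeeze_zero_norm (fun j => (cons_le _ _).1)
    (by simpa using (c0_tendsto a).abs.add (c0_tendsto c).norm))

lemma consE_surj (P : E) : ∃ a c, consE a c = P := by
  have h := fun j => cons_le (P j 0) (tl (P j))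
  simp only [cons_tl] at h
  have h0 : Tendsto (fun j => ‖P j‖) atTop (𝓝 0) := by simpa using (c0_tendsto P).norm
  exact ⟨mk0 _ (squeeze_zero_norm (fun j => (h j).2.1) h0),
    mk0 _ (squeeze_zero_norm (fun j => (h j).2.2) h0), by ext1 j; exact cons_tl _⟩

lemma consE_le (a a' : C0) (c c' : E) : ‖consE a c - consE a' c'‖ ≤ ‖a - a'‖ + ‖c - c'‖ ∧
    ‖a - a'‖ ≤ ‖consE a c - consE a' c'‖ ∧ ‖c - c'‖ ≤ ‖consE a c - consE a' c'‖ := by
  have e : ∀ j, (consE a c - consE a' c') j = cons (a j - a' j) (c j - c' j) := fun j =>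
    cons_sub _ _ _ _
  have h := fun j => c0_apply_le (consE a c - consE a' c') j
  simp only [e] at h
  exact ⟨c0_norm_le (by positivity) fun j => by
      rw [e]; exact (cons_le _ _).1.trans (add_le_add (c0_sub_le a a' j) (c0_sub_le c c' j)),
    c0_norm_le (norm_nonneg _) fun j => (cons_le _ _).2.1.trans (h j),
    c0_norm_le (norm_nonneg _) fun j => (cons_le _ _).2.2.trans (h j)⟩

theorem exists_F : ∃ F : Z × C0 → Z, Function.Surjective F ∧ ∃ c C : ℝ, 0 < c ∧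
    ∀ u v, c * ‖u - v‖ ≤ ‖F u - F v‖ ∧ ‖F u - F v‖ ≤ C * ‖u - v‖ := by
  obtain ⟨Ψ, ⟨-, hs⟩, hΨ⟩ := setupZ.exists_psi
  choose Φ hΦ using hs
  refine ⟨fun u => Ψ (consE u.2 (Φ u.1).1, (Φ u.1).2), fun y => ?_, 1 / 100, 100, by norm_num,
    fun u v => ?_⟩
  · obtain ⟨a, c, h⟩ := consE_surj (Φ y).1
    have h1 := (hΨ (Φ (Ψ (c, (Φ y).2))) (c, (Φ y).2)).1
    rw [hΦ, sub_self, norm_zero] at h1
    have h2 := sub_eq_zero.1 (norm_le_zero_iff.1
      (show ‖Φ (Ψ (c, (Φ y).2)) - (c, (Φ y).2)‖ ≤ 0 by linarith))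
    exact ⟨(Ψ (c, (Φ y).2), a), by simp only [h2, h, hΦ]⟩
  · obtain ⟨h1, h2⟩ := hΨ (consE u.2 (Φ u.1).1, (Φ u.1).2) (consE v.2 (Φ v.1).1, (Φ v.1).2)
    obtain ⟨h3, h4⟩ := hΨ (Φ u.1) (Φ v.1)
    rw [hΦ, hΦ] at h3 h4
    obtain ⟨h5, h6, h7⟩ := consE_le u.2 v.2 (Φ u.1).1 (Φ v.1).1
    set w := (consE u.2 (Φ u.1).1, (Φ u.1).2) - (consE v.2 (Φ v.1).1, (Φ v.1).2)
    have a1 : ‖consE u.2 (Φ u.1).1 - consE v.2 (Φ v.1).1‖ ≤ ‖w‖ := norm_fst_le w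
    have a2 : ‖(Φ u.1).2 - (Φ v.1).2‖ ≤ ‖w‖ := norm_snd_le w
    have a3 : ‖(Φ u.1).1 - (Φ v.1).1‖ ≤ ‖Φ u.1 - Φ v.1‖ := norm_fst_le (Φ u.1 - Φ v.1)
    have a4 : ‖(Φ u.1).2 - (Φ v.1).2‖ ≤ ‖Φ u.1 - Φ v.1‖ := norm_snd_le (Φ u.1 - Φ v.1)
    have a5 : ‖u.1 - v.1‖ ≤ ‖u - v‖ := norm_fst_le (u - v)
    have a6 : ‖u.2 - v.2‖ ≤ ‖u - v‖ := norm_snd_le (u - v)
    have b1 : ‖Φ u.1 - Φ v.1‖ ≤ ‖w‖ := norm_prod_le_iff.2 ⟨h7.trans a1, a2⟩
    have b2 : ‖u - v‖ ≤ 4 * ‖w‖ := norm_prod_le_iff.2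
      ⟨show ‖u.1 - v.1‖ ≤ _ by linarith [norm_nonneg w],
        show ‖u.2 - v.2‖ ≤ _ by linarith [norm_nonneg w]⟩
    have b3 : ‖w‖ ≤ 7 * ‖u - v‖ := norm_prod_le_iff.2
      ⟨show ‖consE u.2 (Φ u.1).1 - consE v.2 (Φ v.1).1‖ ≤ _ by linarith [norm_nonneg (u - v)],
        show ‖(Φ u.1).2 - (Φ v.1).2‖ ≤ _ by linarith [norm_nonneg (u - v)]⟩
    constructor <;> linarith [norm_nonneg w, norm_nonneg (u - v)]

end Crest.Agent.H1Lip
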