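import Crest.Agent.H1Lip.Cut

/-! Weakly unconditionally Cauchy sequences are killed by all members of the family. -/

set_option autoImplicit false

open Set Filter Metric Topology

noncomputable section

namespace Crest.Agent.H1Lip

lemma U_const_or_atTop (a : ℕ → ℕ) : (∃ b, ∀ᶠ i in U, a i = b) ∨ Tendsto a U atTop := by
  by_cases h : ∃ b, ∀ᶠ i in U, a i = b
  · exact Or.inl h
  · right
    refine Filter.tendsto_atTop.2 fun n => ?_
    filter_upwards [(eventually_all_finset (Finset.range n)).2 fun b _ =>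
      U_not fun hb => h ⟨b, hb⟩] with i hi
    by_contra hc
    exact hi (a i) (Finset.mem_range.2 (not_le.1 hc)) rfl

lemma U_finite {α : Type} {A : Set α} (hA : A.Finite) {a : ℕ → α} (h : ∀ᶠ i in U, a i ∈ A) :
    ∃ b, ∀ᶠ i in U, a i = b := by
  by_contra hc
  obtain ⟨i, h1, h2⟩ := (h.and ((eventually_all_finite hA).2 fun b _ =>
    U_not fun hb => hc ⟨b, hb⟩)).exists
  exact h2 _ h1 rfl

lemma U_int (k : ℕ → ℤ) : Tendsto k U atBot ∨ (∃ b, ∀ᶠ i in U, k i = b) ∨ Tendsto k U atTop := by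
  by_cases h1 : Tendsto k U atBot
  · exact Or.inl h1
  by_cases h2 : Tendsto k U atTop
  · exact Or.inr (Or.inr h2)
  rw [Filter.tendsto_atBot, not_forall] at h1
  rw [Filter.tendsto_atTop, not_forall] at h2
  obtain ⟨a, ha⟩ := h1
  obtain ⟨b, hb⟩ := h2
  refine Or.inr (Or.inl (U_finite (finite_Ioo a b) ?_))
  filter_upwards [U_not ha, U_not hb] with i h1 h2 using ⟨not_le.1 h1, not_le.1 h2⟩

lemma cen_const {z} (hW : W z) {D : ℕ} {c K : ℝ} (hc : 0 < c) (hK : 1 ≤ K) {g : ℕ → M → ℝ}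
    {x : ℕ → M} {m : ℕ} {R ρ : ℝ} (hR : 0 < R)
    (h : ∀ᶠ i in U, (Cmb D K (g i) ∧ c ≤ |z i (g i)|) ∧ x i ∈ Cen m R ∧
      ∀ y, g i y ≠ 0 → dm m y (x i) ≤ ρ) : ∃ b, ∀ᶠ i in U, x i = b := by
  by_contra hcon
  refine DP hW hc hK h (fun i hi => hi.1) fun i hi => ?_
  have h1 : ∀ᶠ i' in U, ¬ x i' ∈ {c ∈ Cen m R | dm m c (x i) ≤ 2 * ρ} :=
    U_not fun h' => hcon (U_finite (finite_cen m hR _ _) h')
  filter_upwards [h, h1] with i' h2 h3 y
  by_contra hy
  push Not at hy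
  refine h3 ⟨h2.2.1, ?_⟩
  have := dm_tri m (x i') y (x i)
  rw [dm_comm m (x i') y] at this
  linarith [hi.2.2 y hy.1, h2.2.2 y hy.2]

lemma s_tendsto (a : ℝ) : Tendsto (fun k : ℤ => s (k + a)) atBot (𝓝 0) :=
  Real.tendsto_exp_atBot.comp ((tendsto_atBot_add_const_right _ a
    (tendsto_intCast_atBot_iff.2 tendsto_id)).atBot_div_const e1_pos)

/-- Cells carrying a non-null sequence are constant. -/
theorem AA {z} (hW : W z) (hz : ∀ i, FS (z i)) {D e : ℕ} {c K : ℝ} (hc : 0 < c) (hK : 1 ≤ K)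
    {G : ℕ → Cell} {g : ℕ → M → ℝ}
    (h : ∀ᶠ i in U, (G i).Valid ∧ (Cmb D K (g i) ∧ c ≤ |z i (g i)|) ∧ Sh e (G i) (g i)) :
    ∃ G₀, ∀ᶠ i in U, G i = G₀ := by
  have hLD := one_le_LD D
  have hL : 0 ≤ K * LD D := by nlinarith
  by_cases hbot : Tendsto (fun i => (G i).k) U atBot
  · exfalso
    refine FP hW hz (D := D) hc hK (g := g) (x := fun i => (G i).c) (m := fun i => mL (G i).k)
      (r := fun i => (e + 3) * Rk' (G i).k + K * LD D * s ((G i).k + (e + 3))) ?_ ?_ ?_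
    · refine Filter.tendsto_atTop.2 fun n => ?_
      filter_upwards [hbot.eventually (eventually_le_atBot (-(n : ℤ)))] with i hi
      unfold mL; omega
    · simpa using ((Rk'_tendsto.comp hbot).const_mul ((e : ℝ) + 3)).add
        (((s_tendsto (e + 3)).comp hbot).const_mul (K * LD D))
    · filter_upwards [h] with i hi
      have h1 : 0 ≤ ((e : ℝ) + 3) * Rk' (G i).k := by have := Rk'_pos (G i).k; positivity
      have h2 : 0 ≤ K * LD D * s ((G i).k + (e + 3)) := mul_nonneg hL (s_pos _).le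
      refine ⟨hi.2.1, fun y => ⟨fun hy => by linarith [(theta_ne (hi.2.2 y hy)).2], ?_⟩⟩
      by_cases hy : g i y = 0
      · rw [hy, abs_zero]; linarith
      · have h3 := abs_sub_kap hi.2.1.1.lip hL (G i).j y
        rw [hi.2.2.kap, sub_zero] at h3
        have h4 := (beta_range (theta_ne (hi.2.2 y hy)).1).2
        rw [add_assoc] at h4
        linarith [mul_le_mul_of_nonneg_left h4 hL]
  rcases U_const_or_atTop fun i => (G i).j with ⟨j, hj⟩ | hj
  swap
  · exfalso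
    have hk : ∃ k : ℕ → ℤ, (∀ᶠ i in U, (G i).k = k i) ∧ ∀ i, ∀ᶠ i' in U, k i ≤ k i' := by
      rcases (U_int fun i => (G i).k).resolve_left hbot with ⟨b, hb⟩ | hb
      · exact ⟨fun _ => b, hb, fun _ => Eventually.of_forall fun _ => le_rfl⟩
      · exact ⟨_, Eventually.of_forall fun _ => rfl, fun i => hb.eventually (eventually_ge_atTop _)⟩
    obtain ⟨k, hk1, hk2⟩ := hk
    refine EP hW hz hc hK (D := D) (e := e) (G := fun i => ⟨(G i).j, k i, (G i).c⟩)
      (h := fun i _ => g i) (t := fun i _ => (G i).j) hk2 fun n => ?_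
    filter_upwards [h, hk1, hj.eventually (eventually_gt_atTop n)] with i h1 h2 h3
    rw [← h2]
    exact ⟨h1.1, h1.2.1, h1.2.2, fun y hy => (beta_range (theta_ne (h1.2.2 y hy)).1).1.trans
      (le_tail (Finset.mem_Ioc.2 ⟨h3, le_rfl⟩) y)⟩
  rcases (U_int fun i => (G i).k).resolve_left hbot with ⟨k, hk⟩ | hk
  · obtain ⟨b, hb⟩ := cen_const hW hc hK (g := g) (x := fun i => (G i).c) (m := mL k)
      (ρ := (e + 3) * Rk' k) (Rk_pos k) (by
        filter_upwards [h, hk] with i h1 h2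
        rw [← h2]
        exact ⟨h1.2.1, h1.1, fun y hy => (theta_ne (h1.2.2 y hy)).2⟩)
    refine ⟨⟨j, k, b⟩, ?_⟩
    filter_upwards [hj, hk, hb] with i h1 h2 h3
    rw [← h1, ← h2, ← h3]
  · exfalso
    refine DP hW hc hK (h.and hj) (fun i hi => hi.1.2.1) fun i hi => ?_
    filter_upwards [h, hj, hk.eventually (eventually_ge_atTop ((G i).k + 2 * e + 6))]
      with i' h1 h2 h3 y
    by_contra hy
    push Not at hy
    have h4 := abs_lt.1 (beta_ne (theta_ne (hi.1.2.2 y hy.1)).1).2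
    have h5 := abs_lt.1 (beta_ne (theta_ne (h1.2.2 y hy.2)).1).2
    rw [hi.2] at h4; rw [h2] at h5
    have : ((G i).k : ℝ) + 2 * e + 6 ≤ (G i').k := by exact_mod_cast h3
    linarith

lemma W.comp {z} (hW : W z) (T : (M → ℝ) →ₗ[ℝ] (M → ℝ)) (e : ℕ) {Λ : ℝ} (hΛ : 1 ≤ Λ)
    (hT : ∀ d g, e ≤ d → Mem d g → Mem (d + 1) (T g)) (hl : ∀ f, Lip f 1 → Lip (T f) Λ) :
    W fun i => (z i).comp T := fun d => by
  obtain ⟨B, -, hB⟩ := hW.scaled (max d e + 1)
  exact ⟨B * Λ, fun N hN f hf hf' A ε hε => hB N Λ hN hΛ (T f) (hf.map T fun g hg =>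
    hT _ g (le_max_right _ _) (hg.mono' (le_max_left _ _))) (hl f hf') id Function.injective_id A ε hε⟩

lemma FS.comp {z} (hz : FS z) (T : (M → ℝ) →ₗ[ℝ] (M → ℝ)) (p q : M → M) (χ : M → ℝ)
    (h0 : ∀ y, 0 ≤ χ y) (h1 : ∀ y, χ y ≤ 1) (hT : ∀ f y, T f y = (f (p y) - f (q y)) * χ y) :
    FS (z.comp T) := by
  classical
  obtain ⟨A, B, hB, h⟩ := hz
  refine ⟨A.image p ∪ A.image q, B * 2, by positivity, fun f a ha hf => ?_⟩
  rw [mul_assoc]
  refine h _ _ (by positivity) fun y hy => ?_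
  rw [hT, abs_mul, abs_of_nonneg (h0 y)]
  refine (mul_le_of_le_one_right (abs_nonneg _) (h1 y)).trans ((abs_sub _ _).trans ?_)
  linarith [hf _ (Finset.mem_union_left _ (Finset.mem_image_of_mem p hy)),
    hf _ (Finset.mem_union_right _ (Finset.mem_image_of_mem q hy))]

lemma W.compA {z} (hW : W z) (e : ℕ) {G : Cell} (hG : G.Valid) (n n' : ℕ) :
    W fun i => (z i).comp (TA e G n n') :=
  hW.comp _ e (Λ := CA e * 1) (by linarith [CA_ge e]) (fun _ _ he hg => hg.opA e G n n' he hG)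
    fun _ hf => lip_TA hf zero_le_one _ _ _ _

lemma FS.compA {z} (hz : FS z) (e G n n') : FS (z.comp (TA e G n n')) :=
  hz.comp _ id (kap G.j) _ (fun y => mul_nonneg (theta_nonneg e G y) (clamp_nonneg _))
    (fun y => mul_le_one₀ (theta_le_one e G y) (clamp_nonneg _) (clamp_le_one _)) fun _ _ => rfl

lemma W.compB {z} (hW : W z) {m c} (hc : c ∈ Cen m (muB m)) : W fun i => (z i).comp (TB m c) :=
  hW.comp _ 0 (Λ := 3 * 1) (by norm_num) (fun _ _ _ hg => hg.opB m c hc)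
    fun _ hf => lip_TB hf zero_le_one _ _

lemma FS.compB {z} (hz : FS z) (m c) : FS (z.comp (TB m c)) :=
  hz.comp _ (pr m) (fun _ => pr m c) (eta m c) (fun _ => clamp_nonneg _) (fun _ => clamp_le_one _)
    fun _ _ => rfl

end Crest.Agent.H1Lip
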