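import Crest.Agent.H1Lip.Null

/-! All members of the family kill weakly unconditionally Cauchy sequences. -/

set_option autoImplicit false

open Set Filter Metric Topology

noncomputable section

namespace Crest.Agent.H1Lip

lemma U_tendsto_zero {a : ℕ → ℝ} (h : ∀ c, 0 < c → ¬ ∀ᶠ i in U, c ≤ |a i|) :
    Tendsto a U (𝓝 0) :=
  Metric.tendsto_nhds.2 fun c hc => by
    filter_upwards [U_not (h c hc)] with i hi
    rw [Real.dist_eq, sub_zero]; exact not_le.1 hi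

lemma U_or {p q : ℕ → Prop} (h : ∀ᶠ i in U, p i ∨ q i) : (∀ᶠ i in U, p i) ∨ ∀ᶠ i in U, q i :=
  (Ultrafilter.eventually_or (f := hyperfilter ℕ)).1 h

def rootL (G G' : Cell) (e : ℕ) : H →ₗ[ℝ] (M → ℝ) where
  toFun ξ := root ξ G G' e
  map_add' a b := by ext x; simp only [root, Pi.add_apply, inner_add_left]; ring
  map_smul' c a := by
    ext x; simp only [root, Pi.smul_apply, real_inner_smul_left, smul_eq_mul, RingHom.id_apply]; ring

/-- Finitely supported vectors. -/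
def FR : Submodule ℝ H where
  carrier := {ξ | ∀ᶠ q in atTop, trunc q ξ = ξ}
  add_mem' {a b} ha hb := by
    filter_upwards [ha, hb] with q h1 h2
    conv_rhs => rw [← h1, ← h2]
    ext l; simp only [trunc_apply, lp.coeFn_add, Pi.add_apply]; split_ifs <;> simp
  zero_mem' := Eventually.of_forall trunc_zero
  smul_mem' c a ha := by
    filter_upwards [ha] with q h1
    conv_rhs => rw [← h1]
    ext l; simp only [trunc_apply, lp.coeFn_smul, Pi.smul_apply]; split_ifs <;> simp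

lemma mem_FR {ξ : H} : ξ ∈ FR ↔ ∃ q, trunc q ξ = ξ :=
  ⟨fun h => Eventually.exists h, fun ⟨q, h⟩ => by
    filter_upwards [eventually_ge_atTop q] with m hm
    rw [← h, (trunc_trunc hm _).2]⟩

lemma W.root_le {z} (hW : W z) : ∃ B, 0 ≤ B ∧ ∀ {G G' : Cell} {e : ℕ}, G.Valid → G'.Valid →
    G'.j = G.j → e ≤ 1 → ∀ ξ ∈ FR, ∀ (A : Finset ℕ) (ε : ℕ → ℝ), (∀ i, |ε i| ≤ 1) →
      |∑ i ∈ A, ε i * z i (rootL G G' e ξ)| ≤ B * ‖ξ‖ := by
  obtain ⟨B, hB0, hB⟩ := hW.scaled 0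
  refine ⟨B * LR, mul_nonneg hB0 (by linarith [one_le_LR]), fun {G G' e} hG hG' hj he ξ hξ A ε hε => ?_⟩
  rcases eq_or_ne ξ 0 with rfl | h0
  · simp
  have hn : 0 < ‖ξ‖ := norm_pos_iff.2 h0
  have h1 : Mem 0 (rootL G G' e (‖ξ‖⁻¹ • ξ)) := Mem.root (by
    rw [norm_smul, norm_inv, norm_norm, inv_mul_cancel₀ hn.ne']) (mem_FR.1 (FR.smul_mem _ hξ))
    hG hG' hj he
  have h2 := hB 1 LR le_rfl one_le_LR _ (Cmb.of_mem h1) h1.lip id Function.injective_id A ε hε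
  simp only [map_smul, smul_eq_mul, mul_left_comm _ ‖ξ‖⁻¹, ← Finset.mul_sum, id, Real.sqrt_one,
    mul_one] at h2
  rwa [abs_mul, abs_of_pos (inv_pos.2 hn), inv_mul_le_iff₀ hn, mul_comm] at h2

lemma root_case {z} (hW : W z) {G G' : Cell} {e : ℕ} (hG : G.Valid) (hG' : G'.Valid)
    (hj : G'.j = G.j) (he : e ≤ 1) {ξ : ℕ → H} {c : ℝ} (hc : 0 < c)
    (h : ∀ᶠ i in U, ‖ξ i‖ ≤ 1 ∧ ξ i ∈ FR ∧ c ≤ |z i (rootL G G' e (ξ i))|) : False := by
  obtain ⟨B, hB0, hB⟩ := hW.root_le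
  obtain ⟨N, hN⟩ := exists_nat_gt (B ^ 2 / c ^ 2)
  have hinf : {i | ‖ξ i‖ ≤ 1 ∧ ξ i ∈ FR ∧ c ≤ |z i (rootL G G' e (ξ i))|}.Infinite :=
    fun hf => (Ultrafilter.compl_mem_iff_notMem (f := hyperfilter ℕ)).1
      (compl_mem_hyperfilter_of_finite hf) h
  obtain ⟨A, hA, hAN⟩ := hinf.exists_subset_card_eq N
  set t : ℕ → ℝ := fun l => if 0 ≤ z l (rootL G G' e (ξ l)) then 1 else -1 with ht
  set η : ℕ → H := fun l => t l • ξ l with hη
  have h1 : ∀ l ∈ A, c / 2 ≤ z l (rootL G G' e (η l)) - c / 2 * inner ℝ (η l) (η l) := by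
    intro l hl
    obtain ⟨h2, -, h3⟩ := hA hl
    have h4 : ‖η l‖ ≤ 1 := by
      simp only [hη, ht, norm_smul]; split_ifs <;> simpa using h2
    have h5 : c ≤ z l (rootL G G' e (η l)) := by
      simp only [hη, ht, map_smul, smul_eq_mul]; split_ifs with h6
      · rwa [abs_of_nonneg h6, ← one_mul (z l _)] at h3
      · rw [abs_of_neg (not_le.1 h6)] at h3; linarith
    rw [real_inner_self_eq_norm_sq]
    nlinarith [pow_le_one₀ (norm_nonneg (η l)) h4 (n := 2)]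
  obtain ⟨ε, hε, hs⟩ := exists_signs
    (fun l m => z l (rootL G G' e (η m)) - c / 2 * inner ℝ (η l) (η m)) A
  set v := ∑ m ∈ A, ε m • η m with hv
  have h2 := hB hG hG' hj he v (FR.sum_mem fun m hm => FR.smul_mem _ (FR.smul_mem _ (hA hm).2.1))
    A ε fun i => by rcases hε i with h | h <;> simp [h]
  have h3 : ∑ l ∈ A, ∑ m ∈ A, ε l * ε m * (z l (rootL G G' e (η m)) - c / 2 * inner ℝ (η l) (η m)) =
      ∑ l ∈ A, ε l * z l (rootL G G' e v) - c / 2 * ‖v‖ ^ 2 := by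
    rw [← real_inner_self_eq_norm_sq, hv, sum_inner, Finset.mul_sum, ← Finset.sum_sub_distrib]
    refine Finset.sum_congr rfl fun l _ => ?_
    simp only [map_sum, map_smul, smul_eq_mul, inner_sum, real_inner_smul_left,
      real_inner_smul_right, Finset.mul_sum, ← Finset.sum_sub_distrib]
    exact Finset.sum_congr rfl fun m _ => by ring
  have h4 := Finset.card_nsmul_le_sum A _ _ h1
  rw [hAN, nsmul_eq_mul] at h4
  rw [div_lt_iff₀ (by positivity)] at hN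
  have h5 : (N : ℝ) * (c / 2) ≤ B * ‖v‖ - c / 2 * ‖v‖ ^ 2 := by
    linarith [le_abs_self (∑ l ∈ A, ε l * z l (rootL G G' e v))]
  nlinarith [sq_nonneg (B - c * ‖v‖), mul_le_mul_of_nonneg_left h5 hc.le]

lemma P_zero {z} (hW : W z) (hz : ∀ i, FS (z i)) {g : ℕ → M → ℝ} (hg : ∀ᶠ i in U, Mem 0 (g i)) :
    Tendsto (fun i => z i (g i)) U (𝓝 0) := by
  refine U_tendsto_zero fun c hc h => ?_
  have : ∀ i, ∃ (ξ : H) (G G' : Cell) (e : ℕ), Mem 0 (g i) → (‖ξ‖ ≤ 1 ∧ ξ ∈ FR) ∧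
      (G.Valid ∧ G'.Valid ∧ G'.j = G.j ∧ e ≤ 1) ∧ g i = rootL G G' e ξ := fun i => by
    by_cases hi : Mem 0 (g i)
    · generalize g i = f at hi
      cases hi with
      | root h1 h2 h3 h4 h5 h6 => exact ⟨_, _, _, _, fun _ => ⟨⟨h1, mem_FR.2 h2⟩, ⟨h3, h4, h5, h6⟩, rfl⟩⟩
    · exact ⟨0, ⟨0, 0, M.zero⟩, ⟨0, 0, M.zero⟩, 0, fun h => absurd h hi⟩
  choose ξ G G' e H using this
  obtain ⟨e₀, he⟩ := U_finite (finite_Iic 1) (a := e) (hg.mono fun i hi => (H i hi).2.1.2.2.2)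
  obtain ⟨G₀, hG⟩ := AA hW hz (D := 0) (e := 0) hc le_rfl (G := G) (g := g) (by
    filter_upwards [hg, h] with i h1 h2
    refine ⟨(H i h1).2.1.1, ⟨Cmb.of_mem h1, h2⟩, fun y hy => ?_⟩
    rw [(H i h1).2.2] at hy
    exact left_ne_zero_of_mul (right_ne_zero_of_mul hy))
  obtain ⟨G₁, hG'⟩ := AA hW hz (D := 0) (e := e₀) hc le_rfl (G := G') (g := g) (by
    filter_upwards [hg, h, he] with i h1 h2 h3
    refine ⟨(H i h1).2.1.2.1, ⟨Cmb.of_mem h1, h2⟩, fun y hy => ?_⟩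
    rw [(H i h1).2.2, h3] at hy
    exact right_ne_zero_of_mul (right_ne_zero_of_mul hy))
  obtain ⟨i, h1, h2, h3, h4⟩ := (hg.and (he.and (hG.and hG'))).exists
  have h5 := (H i h1).2.1
  rw [h2, h3, h4] at h5
  refine root_case hW h5.1 h5.2.1 h5.2.2.1 h5.2.2.2 hc (ξ := ξ) ?_
  filter_upwards [hg, h, he, hG, hG'] with i h1 h2 h3 h4 h5
  refine ⟨(H i h1).1.1, (H i h1).1.2, ?_⟩
  rwa [(H i h1).2.2, h3, h4, h5] at h2

lemma omega_min {e : ℕ} {k : ℤ} {n n' m : ℕ} {y : M} (h : tail m n' y ≤ ak e k) :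
    omega e k n n' y = omega e k (min n m) (min n' m) y := by
  have h1 : tail (min n m) (min n' m) y ≤ tail n n' y := tail_le.2 ⟨tail_nonneg _ _ _, fun l hl =>
    le_tail (by simp only [Finset.mem_Ioc] at hl ⊢; omega) y⟩
  have h2 : tail n n' y ≤ max (tail (min n m) (min n' m) y) (ak e k) :=
    tail_le.2 ⟨le_max_of_le_right (ak_pos _ _).le, fun l hl => by
      rcases le_or_gt l m with h3 | h3
      · exact le_max_of_le_left (le_tail (by simp only [Finset.mem_Ioc] at hl ⊢; omega) y)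
      · exact le_max_of_le_right
          ((le_tail (by simp only [Finset.mem_Ioc] at hl ⊢; omega) y).trans h)⟩
  rcases le_total (tail (min n m) (min n' m) y) (ak e k) with h3 | h3
  · rw [omega_eq_one h3, omega_eq_one (by rwa [max_eq_right h3] at h2)]
  · rw [omega, omega, le_antisymm h1 (by rwa [max_eq_left h3] at h2)]

theorem Pd : ∀ (d : ℕ) {z : ℕ → Fn}, W z → (∀ i, FS (z i)) → ∀ {g : ℕ → M → ℝ},
    (∀ᶠ i in U, Mem d (g i)) → Tendsto (fun i => z i (g i)) U (𝓝 0) := by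
  intro d
  induction d with
  | zero => exact fun hW hz _ hg => P_zero hW hz hg
  | succ d ih =>
  intro z hW hz g hg
  have : ∀ᶠ i in U, Mem d (g i) ∨ (∃ e G n n' f, e ≤ d ∧ G.Valid ∧ Mem d f ∧ g i = TA e G n n' f) ∨
      ∃ m c f, c ∈ Cen m (muB m) ∧ Mem d f ∧ g i = TB m c f := hg.mono fun i hi => by
    generalize g i = f at hi
    cases hi with
    | mono h => exact Or.inl h
    | opA e G n n' h1 h2 h3 => exact Or.inr (Or.inl ⟨e, G, n, n', _, h1, h2, h3, rfl⟩)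
    | opB m c h1 h2 => exact Or.inr (Or.inr ⟨m, c, _, h1, h2, rfl⟩)
  rcases U_or this with h0 | h0
  · exact ih hW hz h0
  refine U_tendsto_zero fun c hc h => ?_
  rcases U_or h0 with h0 | h0
  · have : ∀ i, ∃ (e : ℕ) (G : Cell) (n n' : ℕ) (f : M → ℝ),
        (∃ e G n n' f, e ≤ d ∧ G.Valid ∧ Mem d f ∧ g i = TA e G n n' f) →
        e ≤ d ∧ G.Valid ∧ Mem d f ∧ g i = TA e G n n' f := fun i => by
      by_cases hi : ∃ e G n n' f, e ≤ d ∧ G.Valid ∧ Mem d f ∧ g i = TA e G n n' f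
      · obtain ⟨e, G, n, n', f, hi⟩ := hi; exact ⟨e, G, n, n', f, fun _ => hi⟩
      · exact ⟨0, ⟨0, 0, M.zero⟩, 0, 0, 0, fun h => absurd h hi⟩
    choose e G n n' f H using this
    have H' : ∀ᶠ i in U, e i ≤ d ∧ (G i).Valid ∧ Mem d (f i) ∧
      g i = TA (e i) (G i) (n i) (n' i) (f i) := h0.mono H
    obtain ⟨e₀, he⟩ := U_finite (finite_Iic d) (a := e) (H'.mono fun i hi => hi.1)
    obtain ⟨G₀, hG⟩ := AA hW hz (D := d + 1) (e := e₀) hc le_rfl (G := G) (g := g) (by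
      filter_upwards [hg, h, he, H'] with i h1 h2 h3 h4
      refine ⟨h4.2.1, ⟨Cmb.of_mem h1, h2⟩, fun y hy => ?_⟩
      rw [h4.2.2.2, h3] at hy
      exact left_ne_zero_of_mul (right_ne_zero_of_mul hy))
    obtain ⟨i₀, h1, h2, h3⟩ := (H'.and (he.and hG)).exists
    rw [h2, h3] at h1
    refine EP hW hz (D := d + 1) (e := e₀) (half_pos hc) (K := 1 + 1) (by norm_num)
      (G := fun _ => G₀) (h := fun i m => g i - TA e₀ G₀ (min (n i) m) (min (n' i) m) (f i))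
      (t := fun i _ => n' i) (fun _ => Eventually.of_forall fun _ => le_rfl) fun m => ?_
    obtain ⟨p, hp⟩ := U_finite ((finite_Iic m).prod (finite_Iic m))
      (a := fun i => (min (n i) m, min (n' i) m))
      (Eventually.of_forall fun i => ⟨min_le_right (n i) m, min_le_right (n' i) m⟩)
    have h4 := ih (hW.compA e₀ h1.2.1 p.1 p.2) (fun i => (hz i).compA _ _ _ _) (g := f)
      (H'.mono fun i hi => hi.2.2.1)
    filter_upwards [hg, h, he, hG, H', hp, Metric.tendsto_nhds.1 h4 _ (half_pos hc)]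
      with i h5 h6 h7 h8 h9 h10 h11
    rw [h7, h8] at h9
    rw [← h10, Real.dist_eq, sub_zero, LinearMap.comp_apply] at h11
    refine ⟨h9.2.1, ⟨(Cmb.of_mem h5).sub (Cmb.of_mem (h9.2.2.1.opA _ _ _ _ h9.1 h9.2.1)), ?_⟩,
      fun y hy => ?_, fun y hy => ?_⟩
    · rw [map_sub]
      linarith [abs_sub_abs_le_abs_sub (z i (g i)) (z i (TA e₀ G₀ (min (n i) m) (min (n' i) m) (f i)))]
    · intro h12; apply hy; simp [h9.2.2.2, TA_apply, h12]
    · by_contra h12; apply hy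
      rw [Pi.sub_apply, h9.2.2.2, TA_apply, TA_apply, omega_min (not_le.1 h12).le, sub_self]
  · have : ∀ i, ∃ (m : ℕ) (c : M) (f : M → ℝ),
        (∃ m c f, c ∈ Cen m (muB m) ∧ Mem d f ∧ g i = TB m c f) →
        c ∈ Cen m (muB m) ∧ Mem d f ∧ g i = TB m c f := fun i => by
      by_cases hi : ∃ m c f, c ∈ Cen m (muB m) ∧ Mem d f ∧ g i = TB m c f
      · obtain ⟨m, c, f, hi⟩ := hi; exact ⟨m, c, f, fun _ => hi⟩
      · exact ⟨0, M.zero, 0, fun h => absurd h hi⟩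
    choose m x f H using this
    have H' := h0.mono H
    have hs : ∀ᶠ i in U, ∀ y, g i y ≠ 0 → dm (m i) y (x i) ≤ 2 * rho (m i) :=
      H'.mono fun i hi y hy => by
        rw [hi.2.2] at hy; exact eta_ne (right_ne_zero_of_mul hy)
    have hL := one_le_LD d
    rcases U_const_or_atTop m with ⟨m₀, hm⟩ | hm
    · obtain ⟨b, hb⟩ := cen_const hW (D := d + 1) hc le_rfl (g := g) (x := x) (m := m₀)
        (ρ := 2 * rho m₀) (muB_pos m₀) (by
          filter_upwards [hg, h, H', hs, hm] with i h1 h2 h3 h4 h5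
          rw [← h5]; exact ⟨⟨Cmb.of_mem h1, h2⟩, h3.1, h4⟩)
      obtain ⟨i₀, h1, h2, h3⟩ := (H'.and (hm.and hb)).exists
      rw [h2, h3] at h1
      have h4 := ih (hW.compB h1.1) (fun i => (hz i).compB _ _) (g := f)
        (H'.mono fun i hi => hi.2.1)
      obtain ⟨i, h5, h6, h7, h8, h9⟩ :=
        (h.and (H'.and (hm.and (hb.and (Metric.tendsto_nhds.1 h4 _ hc))))).exists
      rw [h6.2.2, h7, h8] at h5
      rw [Real.dist_eq, sub_zero, LinearMap.comp_apply] at h9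
      linarith
    · refine FP hW hz (D := d + 1) hc le_rfl (g := g) (x := x) hm
        (r := fun i => 2 * LD d * rho (m i)) ?_ ?_
      · simpa using (rho_tendsto.comp hm).const_mul (2 * LD d)
      · filter_upwards [hg, h, H', hs] with i h1 h2 h3 h4
        refine ⟨⟨Cmb.of_mem h1, h2⟩, fun y => ⟨fun hy => (h4 y hy).trans ?_, ?_⟩⟩
        · have := rho_pos (m i); nlinarith
        · rw [h3.2.2]; exact abs_TB_le h3.2.1.lip (by linarith) _ _ _

end Crest.Agent.H1Lip
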