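import Crest.Agent.H1Lip.Family

/-! The three cutting principles. -/

set_option autoImplicit false

open Set Filter Metric Topology

noncomputable section

namespace Crest.Agent.H1Lip

abbrev Fn := (M → ℝ) →ₗ[ℝ] ℝ

/-- Finitely supported functionals. -/
def FS (z : Fn) : Prop := ∃ (T : Finset M) (B : ℝ), 0 ≤ B ∧
  ∀ f a, 0 ≤ a → (∀ y ∈ T, |f y| ≤ a) → |z f| ≤ B * a

def W (z : ℕ → Fn) : Prop := ∀ d, ∃ B, ∀ N : ℝ, 1 ≤ N → ∀ f, Cmb d N f → Lip f 1 →
  ∀ (A : Finset ℕ) (ε : ℕ → ℝ), (∀ i, |ε i| ≤ 1) → |∑ i ∈ A, ε i * z i f| ≤ B * √N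

lemma exists_signs {ι : Type} [DecidableEq ι] (a : ι → ι → ℝ) (A : Finset ι) :
    ∃ ε : ι → ℝ, (∀ i, ε i = 1 ∨ ε i = -1) ∧
      ∑ i ∈ A, a i i ≤ ∑ i ∈ A, ∑ j ∈ A, ε i * ε j * a i j := by
  induction A using Finset.induction_on with
  | empty => exact ⟨fun _ => 1, fun _ => Or.inl rfl, by simp⟩
  | insert b A hb ih =>
    obtain ⟨ε, h1, h2⟩ := ih
    set X := ∑ j ∈ A, ε j * (a b j + a j b)
    obtain ⟨t, ht, htX⟩ : ∃ t : ℝ, (t = 1 ∨ t = -1) ∧ 0 ≤ t * X := by
      rcases le_total 0 X with h | h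
      · exact ⟨1, Or.inl rfl, by simpa⟩
      · exact ⟨-1, Or.inr rfl, by simpa⟩
    have hu : ∀ i ∈ A, Function.update ε b t i = ε i := fun i hi =>
      Function.update_of_ne (fun h => hb (by rw [← h]; exact hi)) _ _
    refine ⟨Function.update ε b t, fun i => ?_, ?_⟩
    · by_cases h : i = b
      · subst h; simpa using ht
      · rw [Function.update_of_ne h]; exact h1 i
    · have htt : t * t = 1 := by rcases ht with rfl | rfl <;> norm_num
      simp only [Finset.sum_insert hb, Function.update_self, Finset.sum_add_distrib]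
      have e1 : ∑ j ∈ A, t * Function.update ε b t j * a b j = ∑ j ∈ A, t * ε j * a b j :=
        Finset.sum_congr rfl fun j hj => by rw [hu j hj]
      have e2 : ∑ j ∈ A, Function.update ε b t j * t * a j b = ∑ j ∈ A, ε j * t * a j b :=
        Finset.sum_congr rfl fun j hj => by rw [hu j hj]
      have e3 : ∑ i ∈ A, ∑ j ∈ A, Function.update ε b t i * Function.update ε b t j * a i j =
          ∑ i ∈ A, ∑ j ∈ A, ε i * ε j * a i j := Finset.sum_congr rfl fun i hi =>
        Finset.sum_congr rfl fun j hj => by rw [hu j hj, hu i hi]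
      rw [e1, e2, e3, htt]
      have : t * X = ∑ j ∈ A, t * ε j * a b j + ∑ j ∈ A, ε j * t * a j b := by
        rw [Finset.mul_sum, ← Finset.sum_add_distrib]
        exact Finset.sum_congr rfl fun j _ => by ring
      linarith

lemma W.scaled {z} (hW : W z) (d : ℕ) : ∃ B, 0 ≤ B ∧ ∀ N L : ℝ, 1 ≤ N → 1 ≤ L → ∀ f, Cmb d N f →
    Lip f L → ∀ (ι : ℕ → ℕ), Function.Injective ι → ∀ (A : Finset ℕ) (ε : ℕ → ℝ),
      (∀ i, |ε i| ≤ 1) → |∑ i ∈ A, ε i * z (ι i) f| ≤ B * L * √N := by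
  obtain ⟨B, hB⟩ := hW d
  refine ⟨max B 0, le_max_right _ _, fun N L hN hL f hf hl ι hι A ε hε => ?_⟩
  have hL0 : 0 < L := by linarith
  have h1 : Cmb d N (L⁻¹ • f) := (hf.smul _).mono (mul_le_of_le_one_left (by linarith)
    (by rw [abs_of_pos (inv_pos.2 hL0)]; exact inv_le_one_of_one_le₀ hL))
  have h2 : Lip (L⁻¹ • f) 1 := fun x y => by
    simp only [Pi.smul_apply, smul_eq_mul]
    rw [← mul_sub, abs_mul, abs_of_pos (inv_pos.2 hL0), inv_mul_le_iff₀ hL0, one_mul]
    exact hl x y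
  have h3 := hB N hN _ h1 h2 (A.image ι) (Function.extend ι ε 0) (fun i => by
    by_cases h : ∃ a, ι a = i
    · obtain ⟨a, rfl⟩ := h; rw [hι.extend_apply]; exact hε a
    · rw [Function.extend_apply' _ _ _ h]; simp)
  rw [Finset.sum_image fun a _ b _ h => hι h] at h3
  simp only [hι.extend_apply, map_smul, smul_eq_mul, mul_left_comm _ L⁻¹, ← Finset.mul_sum] at h3
  rw [abs_mul, abs_of_pos (inv_pos.2 hL0), inv_mul_le_iff₀ hL0] at h3
  refine h3.trans ?_
  rw [mul_left_comm, ← mul_assoc, mul_comm B L, mul_comm (max B 0) L]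
  gcongr
  exact le_max_left _ _

/-- The final contradiction. -/
theorem contra {z} (hW : W z) {D : ℕ} {c K L : ℝ} (hc : 0 < c) (hK : 1 ≤ K) (hL : 1 ≤ L)
    (h : ∀ N : ℕ, ∃ (ι : ℕ → ℕ) (g : ℕ → M → ℝ), Function.Injective ι ∧
      (∀ l < N, Cmb D K (g l) ∧ c ≤ |z (ι l) (g l)|) ∧
      ∀ x y, ∑ l ∈ Finset.range N, |g l x - g l y| ≤ L * dist x y) : False := by
  obtain ⟨B, hB0, hB⟩ := hW.scaled D
  obtain ⟨N, hN⟩ := exists_nat_gt (max 1 ((B * L / c) ^ 2 * K))
  have hN1 : (1 : ℝ) < N := (le_max_left _ _).trans_lt hN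
  have hN2 : (B * L / c) ^ 2 * K < N := (le_max_right _ _).trans_lt hN
  obtain ⟨ι, g, hι, hg, hl⟩ := h N
  set t : ℕ → ℝ := fun l => if 0 ≤ z (ι l) (g l) then 1 else -1 with ht
  have ht1 : ∀ l, |t l| = 1 := fun l => by simp only [ht]; split_ifs <;> simp
  have ht2 : ∀ l, t l * z (ι l) (g l) = |z (ι l) (g l)| := fun l => by
    simp only [ht]; split_ifs with h
    · rw [abs_of_nonneg h, one_mul]
    · rw [abs_of_neg (not_le.1 h)]; ring
  obtain ⟨ε, hε, hs⟩ := exists_signs (fun l l' => t l' * z (ι l) (g l')) (Finset.range N)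
  have hε1 : ∀ l, |ε l| = 1 := fun l => by rcases hε l with h | h <;> simp [h]
  set f := ∑ l ∈ Finset.range N, (ε l * t l) • g l with hf
  have h1 : Cmb D (N * K) f := by
    have := Cmb.sum (d := D) (K := K) (Finset.range N) (f := fun l => (ε l * t l) • g l)
      fun l hl => by simpa [abs_mul, hε1, ht1] using (hg l (Finset.mem_range.1 hl)).1.smul (ε l * t l)
    simpa using this
  have h2 : Lip f L := fun x y => by
    refine le_trans ?_ (hl x y)
    simp only [hf, Finset.sum_apply, Pi.smul_apply, smul_eq_mul, ← Finset.sum_sub_distrib, ← mul_sub]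
    refine (Finset.abs_sum_le_sum_abs _ _).trans (le_of_eq (Finset.sum_congr rfl fun l _ => ?_))
    rw [abs_mul, abs_mul, hε1, ht1]; ring
  have h3 := hB (N * K) L (by nlinarith) hL f h1 h2 ι hι (Finset.range N) ε fun i => (hε1 i).le
  have h4 : ∑ l ∈ Finset.range N, ε l * z (ι l) f =
      ∑ l ∈ Finset.range N, ∑ l' ∈ Finset.range N, ε l * ε l' * (t l' * z (ι l) (g l')) := by
    refine Finset.sum_congr rfl fun l _ => ?_
    simp only [hf, map_sum, map_smul, smul_eq_mul, Finset.mul_sum]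
    exact Finset.sum_congr rfl fun l' _ => by ring
  have h5 : (N : ℝ) * c ≤ ∑ l ∈ Finset.range N, t l * z (ι l) (g l) := by
    have := Finset.card_nsmul_le_sum (Finset.range N) (fun l => t l * z (ι l) (g l)) c
      fun l hl => by rw [ht2]; exact (hg l (Finset.mem_range.1 hl)).2
    simpa using this
  have h6 : (N : ℝ) * c ≤ B * L * √(N * K) := by linarith [le_abs_self (∑ l ∈ Finset.range N, ε l * z (ι l) f)]
  have h7 := pow_le_pow_left₀ (by positivity) h6 2
  rw [mul_pow (B * L), Real.sq_sqrt (by positivity)] at h7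
  rw [div_pow, div_mul_eq_mul_div, div_lt_iff₀ (by positivity)] at hN2
  nlinarith

abbrev U : Filter ℕ := hyperfilter ℕ

lemma U_le : U ≤ atTop := Nat.hyperfilter_le_atTop

lemma sum_disj {N : ℕ} {g : ℕ → M → ℝ} {L : ℝ} (hL : 0 ≤ L) (hl : ∀ l < N, Lip (g l) L)
    (hd : ∀ l l', l < l' → l' < N → ∀ x, g l x = 0 ∨ g l' x = 0) (x y : M) :
    ∑ l ∈ Finset.range N, |g l x - g l y| ≤ 2 * L * dist x y := by
  classical
  have hc : ∀ x, ((Finset.range N).filter fun l => g l x ≠ 0).card ≤ 1 := fun x => by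
    refine Finset.card_le_one.2 fun a ha b hb => ?_
    simp only [Finset.mem_filter, Finset.mem_range] at ha hb
    rcases lt_trichotomy a b with h | h | h
    · exact absurd (hd a b h hb.1 x) (by tauto)
    · exact h
    · exact absurd (hd b a h ha.1 x) (by tauto)
  set A := ((Finset.range N).filter fun l => g l x ≠ 0) ∪ (Finset.range N).filter fun l => g l y ≠ 0
  have hA : A ⊆ Finset.range N := Finset.union_subset (Finset.filter_subset _ _) (Finset.filter_subset _ _)
  rw [← Finset.sum_subset hA fun l hl hl' => by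
    simp only [A, Finset.mem_union, Finset.mem_filter, hl, true_and, not_or, not_not] at hl'
    simp [hl'.1, hl'.2]]
  have h2 : (A.card : ℝ) ≤ 2 := by
    have : A.card ≤ 2 := (Finset.card_union_le _ _).trans (add_le_add (hc x) (hc y))
    exact_mod_cast this
  refine (Finset.sum_le_card_nsmul A _ (L * dist x y) fun l hl' =>
    hl l (Finset.mem_range.1 (hA hl')) x y).trans ?_
  rw [nsmul_eq_mul, mul_assoc]
  exact mul_le_mul_of_nonneg_right h2 (by positivity)

/-- Disjoint principle. -/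
theorem DP {z} (hW : W z) {D : ℕ} {c K : ℝ} (hc : 0 < c) (hK : 1 ≤ K) {g : ℕ → M → ℝ}
    {P : ℕ → Prop} (hP : ∀ᶠ i in U, P i) (hg : ∀ i, P i → Cmb D K (g i) ∧ c ≤ |z i (g i)|)
    (hd : ∀ i, P i → ∀ᶠ i' in U, ∀ x, g i x = 0 ∨ g i' x = 0) : False := by
  obtain ⟨ι, h1, h2⟩ := exists_seq_of_forall_finset_exists P
    (fun i i' => i < i' ∧ ∀ x, g i x = 0 ∨ g i' x = 0) fun s hs =>
      (hP.and ((eventually_all_finset s).2 fun i hi =>
        ((eventually_gt_atTop i).filter_mono U_le).and (hd i (hs i hi)))).exists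
  have hL := one_le_LD D
  refine contra hW hc hK (L := 2 * (K * LD D)) (by nlinarith) fun N =>
    ⟨ι, fun l => g (ι l), (strictMono_nat_of_lt_succ fun n => (h2 _ _ n.lt_succ_self).1).injective,
      fun l _ => hg _ (h1 l), ?_⟩
  exact sum_disj (by nlinarith) (fun l _ => (hg _ (h1 l)).1.lip) fun l l' h _ => (h2 l l' h).2

/-- If points do not accumulate at one centre, they run away from each other. -/
lemma escape {m : ℕ} {R ρ : ℝ} (hR : 0 < R) {x : ℕ → M}
    (h : ∀ c ∈ Cen m R, ∀ᶠ i in U, (m + 1) * (2 * R) < dm m (x i) c) (y : M) :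
    ∀ᶠ i in U, ρ < dm m (x i) y := by
  have hf := finite_cen m hR y (ρ + (m + 1) * (2 * R))
  filter_upwards [(eventually_all_finite hf).2 fun c hc => h c hc.1] with i hi
  obtain ⟨c, hc, hc'⟩ := exists_cen m hR (x i)
  by_contra hcon
  refine absurd (hi c ⟨hc, ?_⟩) (not_lt.2 hc')
  have := dm_tri m c (x i) y
  rw [dm_comm m c (x i)] at this
  linarith [not_lt.1 hcon]

end Crest.Agent.H1Lip
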