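import Crest.Agent.H1Lip.Fix

/-! The bi-Lipschitz map. -/

set_option autoImplicit false

open Set Filter Metric Topology
open scoped ZeroAtInfty ENNReal

noncomputable section

namespace Crest.Agent.H1Lip

def evn (P : E) : E := mk0 (fun n => P (2 * n)) ((c0_tendsto P).comp
  (tendsto_atTop_mono (fun n => by simp only [id]; omega) tendsto_id))

def odd (P : E) : E := mk0 (fun n => P (2 * n + 1)) ((c0_tendsto P).comp
  (tendsto_atTop_mono (fun n => by simp only [id]; omega) tendsto_id))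

lemma tendsto_half : Tendsto (fun n : ℕ => n / 2) atTop atTop :=
  Filter.tendsto_atTop.2 fun b => by filter_upwards [eventually_ge_atTop (2 * b)] with n hn; omega

def il (a c : E) : E := mk0 (fun n => if n % 2 = 0 then a (n / 2) else c (n / 2))
  (((c0_tendsto a).comp tendsto_half).if' ((c0_tendsto c).comp tendsto_half))

lemma evn_il (a c : E) : evn (il a c) = a := by
  ext1 n
  change (if 2 * n % 2 = 0 then a (2 * n / 2) else c (2 * n / 2)) = _
  rw [if_pos (by omega), show 2 * n / 2 = n by omega]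

lemma odd_il (a c : E) : odd (il a c) = c := by
  ext1 n
  change (if (2 * n + 1) % 2 = 0 then a ((2 * n + 1) / 2) else c ((2 * n + 1) / 2)) = _
  rw [if_neg (by omega), show (2 * n + 1) / 2 = n by omega]

lemma evn_le (P P' : E) : ‖evn P - evn P'‖ ≤ ‖P - P'‖ :=
  c0_norm_le (norm_nonneg _) fun n => c0_sub_le P P' (2 * n)

lemma odd_le (P P' : E) : ‖odd P - odd P'‖ ≤ ‖P - P'‖ :=
  c0_norm_le (norm_nonneg _) fun n => c0_sub_le P P' (2 * n + 1)

lemma le_evn_odd (P P' : E) : ‖P - P'‖ ≤ max ‖evn P - evn P'‖ ‖odd P - odd P'‖ :=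
  c0_norm_le (le_max_of_le_left (norm_nonneg _)) fun n => by
    obtain ⟨m, rfl | rfl⟩ := Nat.even_or_odd' n
    · exact le_max_of_le_left (c0_sub_le (evn P) (evn P') m)
    · exact le_max_of_le_right (c0_sub_le (odd P) (odd P') m)

variable {V : Type} [NormedAddCommGroup V] {pj : ℕ → V →+ L} {δ : M → V}

structure Setup (pj : ℕ → V →+ L) (δ : M → V) : Prop where
  le : ∀ j v, ‖pj j v‖ ≤ ‖v‖
  tend : ∀ v, Tendsto (fun j => pj j v) atTop (𝓝 0)
  dl : ∀ j x, pj j (δ x) = phL j x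
  lip : ∀ x y, ‖δ x - δ y‖ ≤ (1 + 1 / 1000) * dist x y

lemma Setup.transfer (hS : Setup pj δ) {w y : V} {C P : E} {h : C0}
    (e : y - δ (hat P h) = w - δ (hat C h)) :
    Sol rd (fun j => pj j w) C P h ↔ Sol (fun j x x' => rd j x' x) (fun j => pj j y) P C h := by
  have h1 : ∀ j, pj j y - phL j (hat P h) = pj j w - phL j (hat C h) := fun j => by
    rw [← hS.dl, ← hS.dl, ← map_sub, ← map_sub, e]
  refine and_congr (forall_congr' fun j => by rw [h1]) (forall_congr' fun j => ?_)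
  have h2 := congrArg (rd j (hat C h) (hat P h)) (h1 j)
  rw [rd_sub, rd_sub, rd_self_left, rd_self_right, hat_u, hat_u] at h2
  rw [eq_comm, ← sub_eq_zero, ← h2, sub_eq_zero, eq_comm]

def Rel (pj : ℕ → V →+ L) (δ : M → V) (u : E × V) (y : V) : Prop :=
  ∃ P h, u.1 = evn P ∧ y - δ (hat P h) = u.2 - δ (hat (odd P) h) ∧
    Sol rd (fun j => pj j u.2) (odd P) P h

lemma Setup.fwd (hS : Setup pj δ) (u : E × V) : ∃ y, Rel pj δ u y := by
  obtain ⟨C, h, hC⟩ := exists_sol rdr_left (hS.tend u.2) (il u.1) fun C C' =>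
    (le_evn_odd _ _).trans (by simp [evn_il, odd_il])
  refine ⟨u.2 - δ (hat C h) + δ (hat (il u.1 C) h), il u.1 C, h, (evn_il _ _).symm, ?_, ?_⟩
  · rw [odd_il, add_sub_cancel_right]
  · rwa [odd_il]

lemma Setup.bwd (hS : Setup pj δ) (y : V) : ∃ u, Rel pj δ u y := by
  obtain ⟨P, h, hP⟩ := exists_sol rdr_right (hS.tend y) odd odd_le
  have e : y - δ (hat P h) = y - δ (hat P h) + δ (hat (odd P) h) - δ (hat (odd P) h) :=
    (add_sub_cancel_right _ _).symm
  exact ⟨(evn P, y - δ (hat P h) + δ (hat (odd P) h)), P, h, rfl, e, (hS.transfer e).2 hP⟩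

lemma Setup.est (hS : Setup pj δ) {u u' : E × V} {y y' : V} (h1 : Rel pj δ u y)
    (h2 : Rel pj δ u' y') :
    4 / 21 * ‖u - u'‖ ≤ ‖y - y'‖ ∧ ‖y - y'‖ ≤ 76 / 25 * ‖u - u'‖ := by
  obtain ⟨P, h, a1, a2, a3⟩ := h1
  obtain ⟨P', h', b1, b2, b3⟩ := h2
  have c1 := a3.est rdr_left b3 (a := ‖u.2 - u'.2‖) fun j => by rw [← map_sub]; exact hS.le _ _
  have c2 := ((hS.transfer a2).1 a3).est rdr_right ((hS.transfer b2).1 b3) (a := ‖y - y'‖)
    fun j => by rw [← map_sub]; exact hS.le _ _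
  rw [max_eq_right (odd_le P P')] at c1
  rw [max_eq_left (odd_le P P')] at c2
  set e := u.2 - δ (hat (odd P) h) - (u'.2 - δ (hat (odd P') h')) with he
  have c3 : ‖h - h'‖ ≤ ‖e‖ / 1000 := c0_norm_le (by positivity) fun j => by
    change ‖h j - h' j‖ ≤ _
    rw [a3.1 j, b3.1 j, ← sub_div, ← hS.dl, ← hS.dl, ← map_sub, ← map_sub, Real.norm_eq_abs, abs_div,
      abs_of_pos (by norm_num : (0 : ℝ) < 1000)]
    refine div_le_div_of_nonneg_right ((abs_norm_sub_norm_le _ _).trans ?_) (by norm_num)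
    rw [← map_sub]; exact hS.le _ _
  have d1 := (hS.lip _ _).trans
    (mul_le_mul_of_nonneg_left (dist_hat (odd P) (odd P') h h') (by norm_num))
  have d2 := (hS.lip _ _).trans (mul_le_mul_of_nonneg_left (dist_hat P P' h h') (by norm_num))
  have e1 : e = u.2 - u'.2 - (δ (hat (odd P) h) - δ (hat (odd P') h')) := by rw [he]; abel
  have e2 : e = y - y' - (δ (hat P h) - δ (hat P' h')) := by rw [he, ← a2, ← b2]; abel
  have f1 := norm_sub_le (u.2 - u'.2) (δ (hat (odd P) h) - δ (hat (odd P') h'))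
  have f2 := norm_sub_le (y - y') (δ (hat P h) - δ (hat P' h'))
  have f3 := norm_sub_norm_le (u.2 - u'.2) (δ (hat (odd P) h) - δ (hat (odd P') h'))
  have f4 := norm_sub_norm_le (y - y') (δ (hat P h) - δ (hat P' h'))
  rw [← e1] at f1 f3
  rw [← e2] at f2 f4
  have g1 := le_evn_odd P P'
  have g2 := evn_le P P'
  have g3 := odd_le P P'
  rw [← a1, ← b1] at g1 g2
  have n1 : ‖u.1 - u'.1‖ ≤ ‖u - u'‖ := norm_fst_le (u - u')
  have n2 : ‖u.2 - u'.2‖ ≤ ‖u - u'‖ := norm_snd_le (u - u')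
  have n0 := norm_nonneg (y - y')
  constructor
  · have : ‖u - u'‖ ≤ 21 / 4 * ‖y - y'‖ := norm_prod_le_iff.2
      ⟨show ‖u.1 - u'.1‖ ≤ _ by linarith, show ‖u.2 - u'.2‖ ≤ _ by linarith⟩
    linarith
  · rcases le_max_iff.1 g1 with g | g <;> linarith [norm_nonneg (u - u')]

theorem Setup.exists_psi (hS : Setup pj δ) : ∃ Ψ : E × V → V, Function.Bijective Ψ ∧
    ∀ s t, 4 / 21 * ‖s - t‖ ≤ ‖Ψ s - Ψ t‖ ∧ ‖Ψ s - Ψ t‖ ≤ 76 / 25 * ‖s - t‖ := by
  choose Ψ hΨ using hS.fwd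
  refine ⟨Ψ, ⟨fun s t h => ?_, fun y => ?_⟩, fun s t => hS.est (hΨ s) (hΨ t)⟩
  · have := (hS.est (hΨ s) (hΨ t)).1
    rw [h, sub_self, norm_zero] at this
    exact sub_eq_zero.1 (norm_le_zero_iff.1 (by linarith))
  · obtain ⟨u, hu⟩ := hS.bwd y
    have := (hS.est (hΨ u) hu).2
    rw [sub_self, norm_zero, mul_zero] at this
    exact ⟨u, sub_eq_zero.1 (norm_le_zero_iff.1 this)⟩

end Crest.Agent.H1Lip
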