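import Crest.Agent.H1Lip.Big

/-! Averaged localised readers. -/

set_option autoImplicit false

open Set Filter Metric Topology MeasureTheory
open scoped ZeroAtInfty ENNReal

noncomputable section

namespace Crest.Agent.H1Lip

def fl (a ω : ℝ) : ℝ := (⌊a + ω⌋ : ℤ)

lemma fl_int (a : ℝ) : IntervalIntegrable (fl a) volume 0 1 :=
  Monotone.intervalIntegrable fun _ _ h => Int.cast_le.2 (Int.floor_mono (by linarith))

lemma integral_fl (a : ℝ) : ∫ ω in (0 : ℝ)..1, fl a ω =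
    a + (∫ ω in (0 : ℝ)..1, ω) - ∫ ω in (0 : ℝ)..0 + 1, Int.fract ω := by
  have h1 : IntervalIntegrable (fun ω : ℝ => a + ω) volume 0 1 :=
    (by fun_prop : Continuous fun ω : ℝ => a + ω).intervalIntegrable _ _
  have h2 := intervalIntegral.integral_sub h1 (fl_int a)
  have h3 : ∫ ω in (0 : ℝ)..1, (a + ω - fl a ω) = ∫ ω in (0 : ℝ)..1, Int.fract (a + ω) := rfl
  rw [h3, intervalIntegral.integral_comp_add_left Int.fract, add_zero,
    (Int.fract_periodic ℝ).intervalIntegral_add_eq a 0, intervalIntegral.integral_add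
      intervalIntegrable_const (continuous_id'.intervalIntegrable _ _)] at h2
  rw [h2]; simp

lemma integral_abs_fl (a b : ℝ) : ∫ ω in (0 : ℝ)..1, |fl a ω - fl b ω| = |a - b| := by
  wlog h : b ≤ a generalizing a b
  · simp_rw [abs_sub_comm (fl a _), abs_sub_comm a]; exact this b a (not_le.1 h).le
  have : ∀ ω, |fl a ω - fl b ω| = fl a ω - fl b ω := fun ω =>
    abs_of_nonneg (sub_nonneg.2 (Int.cast_le.2 (Int.floor_mono (by linarith))))
  simp_rw [this]
  rw [intervalIntegral.integral_sub (fl_int a) (fl_int b), integral_fl, integral_fl,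
    abs_of_nonneg (sub_nonneg.2 h)]
  ring

lemma one_le_abs_fl {a b ω : ℝ} (h : ⌊a + ω⌋ ≠ ⌊b + ω⌋) : 1 ≤ |fl a ω - fl b ω| := by
  have := Int.one_le_abs (sub_ne_zero.2 h)
  unfold fl; exact_mod_cast this

def lv (j : ℕ) (x : M) : ℝ := e1 * Real.log (x.σ j)

def idx (j : ℕ) (x : M) (ω : ℝ) : I :=
  ⟨⌊lv j x + ω⌋, rnd (mL ⌊lv j x + ω⌋) (Rk ⌊lv j x + ω⌋) ω x⟩

instance : MeasurableSpace I := ⊤
instance : DiscreteMeasurableSpace I := ⟨fun _ => trivial⟩

lemma idx_eq_iff {j x ω} {i : I} :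
    idx j x ω = i ↔ ⌊lv j x + ω⌋ = i.1 ∧ rnd (mL i.1) (Rk i.1) ω x = i.2 := by
  obtain ⟨k, γ⟩ := i
  constructor
  · intro h; obtain ⟨rfl, h⟩ := Sigma.mk.inj h; exact ⟨rfl, eq_of_heq h⟩
  · rintro ⟨h1, h2⟩; dsimp only at h1 h2; subst h1; subst h2; rfl

lemma meas_idx (j x) : Measurable (idx j x) := by
  refine measurable_to_countable' fun i => ?_
  have h1 : Measurable fun ω : ℝ => ⌊lv j x + ω⌋ := (measurable_const_add _).floor
  have h2 : Measurable fun ω : ℝ => rnd (mL i.1) (Rk i.1) ω x :=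
    measurable_pi_lambda _ fun p => (measurable_const_add _).floor
  have : idx j x ⁻¹' {i} = (fun ω : ℝ => ⌊lv j x + ω⌋) ⁻¹' {i.1} ∩
      (fun ω : ℝ => rnd (mL i.1) (Rk i.1) ω x) ⁻¹' {i.2} := Set.ext fun ω => idx_eq_iff
  rw [this]
  exact (h1 (measurableSet_singleton _)).inter (h2 (measurableSet_singleton _))

def rd (j : ℕ) (x x' : M) (g : L) : H := ∫ ω in (0 : ℝ)..1, g (idx j x ω, idx j x' ω)

lemma rd_int (j x x') (g : L) :
    IntervalIntegrable (fun ω => g (idx j x ω, idx j x' ω)) volume 0 1 :=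
  (intervalIntegrable_iff_integrableOn_Ioc_of_le zero_le_one).2
    (Measure.integrableOn_of_bounded (M := ‖g‖) (by simp)
      ((StronglyMeasurable.of_discrete (f := fun p : I × I => g p)).comp_measurable
        ((meas_idx j x).prodMk (meas_idx j x'))).aestronglyMeasurable
      (Eventually.of_forall fun ω => lp.norm_apply_le_norm (by simp) g _))

lemma rd_sub (j x x') (g g' : L) : rd j x x' (g - g') = rd j x x' g - rd j x x' g' :=
  intervalIntegral.integral_sub (rd_int j x x' g) (rd_int j x x' g')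

lemma norm_rd_le (j x x') (g : L) : ‖rd j x x' g‖ ≤ ‖g‖ := by
  simpa [rd] using intervalIntegral.norm_integral_le_of_norm_le_const (a := 0) (b := 1)
    (f := fun ω => g (idx j x ω, idx j x' ω)) fun ω _ => lp.norm_apply_le_norm (by simp) g _

/-- Closeness relative to heights. -/
def Near (j : ℕ) (x y : M) : Prop :=
  0 < x.σ j ∧ 0 < y.σ j ∧ e1 * dist x y ≤ x.σ j ∧ e1 * dist x y ≤ y.σ j

lemma lv_sub {j : ℕ} {x y : M} {m : ℝ} (hm : 0 < m) (hx : m ≤ x.σ j) (hy : m ≤ y.σ j) :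
    |lv j x - lv j y| ≤ e1 * dist x y / m := by
  wlog h : x.σ j ≤ y.σ j generalizing x y
  · rw [abs_sub_comm, dist_comm]; exact this hy hx (not_le.1 h).le
  rw [lv, lv, ← mul_sub, abs_mul, abs_of_pos e1_pos, mul_div_assoc]
  refine mul_le_mul_of_nonneg_left ?_ e1_pos.le
  rw [le_div_iff₀ hm, mul_comm]
  exact (mul_le_mul_of_nonneg_right hx (abs_nonneg _)).trans
    ((log_sub_le (hm.trans_le hx) h).trans (x.σ_sub_le y j))

lemma Near.core {j x y} (h : Near j x y) {ω : ℝ} (h0 : 0 ≤ ω) (h1 : ω ≤ 1) :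
    theta 0 (cell j (idx j x ω)) y = 1 := by
  obtain ⟨hx, hy, h2, h3⟩ := h
  have hm : 0 < min (x.σ j) (y.σ j) := lt_min hx hy
  have h4 := (lv_sub hm (min_le_left _ _) (min_le_right _ _)).trans
    ((div_le_one hm).2 (le_min h2 h3))
  have h5 := Int.floor_le (lv j x + ω)
  have h6 := Int.lt_floor_add_one (lv j x + ω)
  refine theta_eq_one hy ?_ ?_
  · change |lv j y - (⌊lv j x + ω⌋ : ℤ)| ≤ _
    rw [abs_le] at h4 ⊢; push_cast; constructor <;> linarith
  · have h7 := dm_rep (Rk_pos ⌊lv j x + ω⌋) (inCell_rnd (mL ⌊lv j x + ω⌋) _ h0 h1 x)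
    have h8 := dm_tri (mL ⌊lv j x + ω⌋) y x (cell j (idx j x ω)).c
    have h9 := dm_le (mL ⌊lv j x + ω⌋) y x
    have h10 : x.σ j ≤ s (⌊lv j x + ω⌋ + 1) := le_s hx (by change lv j x ≤ _; linarith)
    have h11 := s_le_Rk' ⌊lv j x + ω⌋
    have h12 : s 2 * e1 ≥ 1 := by
      have := Real.add_one_le_exp (2 / e1)
      have h' : 2 / e1 * e1 = 2 := div_mul_cancel₀ _ e1_pos.ne'
      have := e1_pos
      unfold s; nlinarith
    rw [show (⌊lv j x + ω⌋ + 3 : ℝ) = (⌊lv j x + ω⌋ + 1) + 2 by ring, s_add] at h11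
    have h13 : dist y x ≤ Rk' ⌊lv j x + ω⌋ := by
      rw [dist_comm]
      have h14 := s_pos (⌊lv j x + ω⌋ + 1)
      have h15 : e1 ≤ 1 := by rw [e1_eq]; norm_num
      have h16 := e1_pos
      have h17 : 1 ≤ s 2 := by nlinarith [s_pos 2]
      exact le_of_mul_le_mul_left (by nlinarith) h16
    change dm (mL ⌊lv j x + ω⌋) y _ ≤ _ * Rk' ⌊lv j x + ω⌋
    change dm _ x (cell j (idx j x ω)).c ≤ Rk' _ at h7
    push_cast; linarith

lemma rd_of_core {j : ℕ} {x x' y : M}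
    (h : ∀ ω, 0 ≤ ω → ω ≤ 1 → Th j (idx j x ω, idx j x' ω) y = 1) : rd j x x' (phL j y) = y.u j := by
  have : rd j x x' (phL j y) = ∫ _ω in (0 : ℝ)..1, y.u j :=
    intervalIntegral.integral_congr fun ω hω => by
      rw [uIcc_of_le zero_le_one] at hω
      change Th j _ y • y.u j = _
      rw [h ω hω.1 hω.2, one_smul]
  simpa using this

lemma Near.rd_left {j x y} (h : Near j x y) (x' : M) : rd j x x' (phL j y) = y.u j :=
  rd_of_core fun ω h0 h1 => by simp [Th, h.core h0 h1]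

lemma Near.rd_right {j x' y} (h : Near j x' y) (x : M) : rd j x x' (phL j y) = y.u j :=
  rd_of_core fun ω h0 h1 => by simp [Th, h.core h0 h1]

lemma rd_of_zero {j : ℕ} {y : M} (h : ¬ 0 < y.σ j) (x x' : M) : rd j x x' (phL j y) = y.u j := by
  have h1 : ‖y.u j‖ ≤ 0 := (y.norm_u_le j).trans (not_lt.1 h)
  rw [norm_le_zero_iff.1 h1, ← norm_le_zero_iff]
  exact (norm_rd_le _ _ _ _).trans ((norm_phL_le _ _).trans h1)

lemma near_self {j : ℕ} {x : M} (h : 0 < x.σ j) : Near j x x :=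
  ⟨h, h, by simpa using h.le, by simpa using h.le⟩

lemma rd_self_left (j x x') : rd j x x' (phL j x) = x.u j := by
  by_cases h : 0 < x.σ j
  exacts [(near_self h).rd_left _, rd_of_zero h _ _]

lemma rd_self_right (j x x') : rd j x x' (phL j x') = x'.u j := by
  by_cases h : 0 < x'.σ j
  exacts [(near_self h).rd_right _, rd_of_zero h _ _]

lemma exists_bad {j : ℕ} {x y : M} {m : ℝ} (hm : 0 < m) (hx : m ≤ x.σ j) (hy : m ≤ y.σ j) :
    ∃ b : ℝ → ℝ, IntervalIntegrable b volume 0 1 ∧ ∫ ω in (0 : ℝ)..1, b ω ≤ 2 * (e1 * dist x y / m) ∧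
      ∀ ω, 0 ≤ b ω ∧ (0 ≤ ω → ω ≤ 1 → idx j x ω ≠ idx j y ω → 1 ≤ b ω) := by
  set b1 : ℤ → ℝ → ℝ := fun k ω => ∑ p ∈ S (mL k), |fl (lam p x / Rk k) ω - fl (lam p y / Rk k) ω|
  have i1 : ∀ k, IntervalIntegrable (b1 k) volume 0 1 := fun k => by
    have := IntervalIntegrable.sum (S (mL k)) (μ := volume) (a := 0) (b := 1)
      (f := fun p ω => |fl (lam p x / Rk k) ω - fl (lam p y / Rk k) ω|)
      fun p _ => ((fl_int _).sub (fl_int _)).abs
    rwa [Finset.sum_fn] at this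
  have i2 : ∀ k : ℤ, ⌊lv j x⌋ ≤ k → ∫ ω in (0 : ℝ)..1, b1 k ω ≤ e1 * dist x y / m / 2 := by
    intro k hk
    rw [intervalIntegral.integral_finsetSum fun p _ => ((fl_int _).sub (fl_int _)).abs]
    simp only [integral_abs_fl]
    have hR := Rk_pos k
    refine (Finset.sum_le_card_nsmul _ _ (dist x y / Rk k) fun p _ => ?_).trans ?_
    · rw [← sub_div, abs_div, abs_of_pos hR]
      exact div_le_div_of_nonneg_right (lam_sub_le p x y) hR.le
    · have h1 : x.σ j ≤ s (k + 1) := le_s (hm.trans_le hx) (by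
        have := Int.lt_floor_add_one (lv j x)
        have h2 : ((⌊lv j x⌋ : ℤ) : ℝ) ≤ k := by exact_mod_cast hk
        change lv j x ≤ _; linarith)
      have h2 : 2 * m ≤ s (k + 3) := by
        have h3 : s (k + 1 + 1) ≤ s (k + 3) := s_mono (by linarith)
        rw [s_add] at h3
        nlinarith [two_le_s_one, s_pos (k + 1)]
      have h3 := one_le_card k
      have h4 := e1_pos
      have h5 := s_pos (k + 3)
      rw [nsmul_eq_mul, Rk, show ((S (mL k)).card : ℝ) * (dist x y / ((S (mL k)).card * s (k + 3) / e1))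
        = e1 * dist x y / s (k + 3) by field_simp, div_div, mul_comm m]
      exact div_le_div_of_nonneg_left (by positivity) (by positivity) h2
  have i0 := ((fl_int (lv j x)).sub (fl_int (lv j y))).abs
  refine ⟨fun ω => |fl (lv j x) ω - fl (lv j y) ω| + (b1 ⌊lv j x⌋ ω + b1 (⌊lv j x⌋ + 1) ω),
    i0.add ((i1 _).add (i1 _)), ?_, fun ω => ?_⟩
  · rw [intervalIntegral.integral_add i0 ((i1 _).add (i1 _)),
      intervalIntegral.integral_add (i1 _) (i1 _), integral_abs_fl]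
    linarith [i2 _ le_rfl, i2 (⌊lv j x⌋ + 1) (by omega), lv_sub hm hx hy]
  have p1 : ∀ k, 0 ≤ b1 k ω := fun k => Finset.sum_nonneg fun _ _ => abs_nonneg _
  refine ⟨add_nonneg (abs_nonneg _) (add_nonneg (p1 _) (p1 _)), fun h0 h1 hne => ?_⟩
  by_cases hk : ⌊lv j x + ω⌋ = ⌊lv j y + ω⌋
  swap
  · linarith [one_le_abs_fl hk, p1 ⌊lv j x⌋, p1 (⌊lv j x⌋ + 1)]
  have h2 : 1 ≤ b1 ⌊lv j x + ω⌋ ω := by
    by_contra hc
    refine hne (idx_eq_iff.2 ⟨hk.symm, funext fun p => ?_⟩).symm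
    by_contra hp
    exact hc ((one_le_abs_fl (Ne.symm hp)).trans (Finset.single_le_sum
      (f := fun p => |fl (lam p x / Rk ⌊lv j x + ω⌋) ω - fl (lam p y / Rk ⌊lv j x + ω⌋) ω|)
      (fun _ _ => abs_nonneg _) p.2))
  have h3 : ⌊lv j x⌋ ≤ ⌊lv j x + ω⌋ := Int.floor_mono (by linarith)
  have h4 : ⌊lv j x + ω⌋ ≤ ⌊lv j x⌋ + 1 := by
    rw [← Int.floor_add_one]; exact Int.floor_mono (by linarith)
  have h5 := abs_nonneg (fl (lv j x) ω - fl (lv j y) ω)
  rcases h3.eq_or_lt with h | h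
  · rw [← h] at h2; linarith [p1 (⌊lv j x⌋ + 1)]
  · rw [show ⌊lv j x + ω⌋ = ⌊lv j x⌋ + 1 by omega] at h2; linarith [p1 ⌊lv j x⌋]

lemma rd_tv {j : ℕ} {x x' y y' : M} {m : ℝ} (hm : 0 < m) (hx : m ≤ x.σ j) (hy : m ≤ y.σ j)
    (hx' : m ≤ x'.σ j) (hy' : m ≤ y'.σ j) (g : L) : ‖rd j x x' g - rd j y y' g‖ ≤
      2 * ‖g‖ * (2 * (e1 * dist x y / m) + 2 * (e1 * dist x' y' / m)) := by
  obtain ⟨b, hb1, hb2, hb3⟩ := exists_bad hm hx hy
  obtain ⟨b', hb1', hb2', hb3'⟩ := exists_bad hm hx' hy'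
  rw [rd, rd, ← intervalIntegral.integral_sub (rd_int _ _ _ _) (rd_int _ _ _ _)]
  refine (intervalIntegral.norm_integral_le_of_norm_le (g := fun ω => 2 * ‖g‖ * (b ω + b' ω))
    zero_le_one (Eventually.of_forall fun ω hω => ?_) ((hb1.add hb1').const_mul _)).trans ?_
  · by_cases h : idx j x ω = idx j y ω ∧ idx j x' ω = idx j y' ω
    · rw [h.1, h.2, sub_self, norm_zero]
      have := (hb3 ω).1; have := (hb3' ω).1; positivity
    · have h1 : 1 ≤ b ω + b' ω := by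
        rcases not_and_or.1 h with h | h
        · linarith [(hb3 ω).2 hω.1.le hω.2 h, (hb3' ω).1]
        · linarith [(hb3' ω).2 hω.1.le hω.2 h, (hb3 ω).1]
      have h2 := lp.norm_apply_le_norm (by simp) g (idx j x ω, idx j x' ω)
      have h3 := lp.norm_apply_le_norm (by simp) g (idx j y ω, idx j y' ω)
      nlinarith [norm_sub_le (g (idx j x ω, idx j x' ω)) (g (idx j y ω, idx j y' ω)), norm_nonneg g]
  · rw [intervalIntegral.integral_const_mul, intervalIntegral.integral_add hb1 hb1']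
    exact mul_le_mul_of_nonneg_left (add_le_add hb2 hb2') (by positivity)

end Crest.Agent.H1Lip
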