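import Mathlib

/-! The metric space `M` of configurations with heights, its projections and cells. -/

set_option autoImplicit false

open Set Filter Metric Topology
open scoped ZeroAtInfty

noncomputable section

namespace Crest.Agent.H1Lip

abbrev H : Type := lp (fun _ : ℕ => ℝ) 2

section C0
variable {β : Type} [NormedAddCommGroup β]

/-- A null sequence as an element of `c₀`. -/
def mk0 (f : ℕ → β) (hf : Tendsto f atTop (𝓝 0)) : C₀(ℕ, β) where
  toFun := f
  continuous_toFun := continuous_of_discreteTopology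
  zero_at_infty' := by rwa [cocompact_eq_cofinite, Nat.cofinite_eq_atTop]

@[simp] lemma mk0_apply (f : ℕ → β) (hf : Tendsto f atTop (𝓝 0)) (j : ℕ) : mk0 f hf j = f j := rfl

lemma c0_tendsto (f : C₀(ℕ, β)) : Tendsto f atTop (𝓝 0) := by
  have := zero_at_infty f
  rwa [cocompact_eq_cofinite, Nat.cofinite_eq_atTop] at this

lemma c0_apply_le (f : C₀(ℕ, β)) (j : ℕ) : ‖f j‖ ≤ ‖f‖ := f.toBCF.norm_coe_le_norm j

lemma c0_norm_le {f : C₀(ℕ, β)} {C : ℝ} (hC : 0 ≤ C) (h : ∀ j, ‖f j‖ ≤ C) : ‖f‖ ≤ C :=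
  (BoundedContinuousFunction.norm_le (f := f.toBCF) hC).2 h

lemma c0_sub_le (f g : C₀(ℕ, β)) (j : ℕ) : ‖f j - g j‖ ≤ ‖f - g‖ := c0_apply_le (f - g) j

end C0

/-- Truncation in `ℓ²`. -/
def trunc (m : ℕ) (v : H) : H := ∑ q ∈ Finset.range m, lp.single 2 q (v q)

lemma trunc_apply (m : ℕ) (v : H) (q : ℕ) : trunc m v q = if q < m then v q else 0 := by
  rw [trunc, lp.coeFn_sum, Finset.sum_apply]
  simp [lp.single_apply, Pi.single_apply]

lemma trunc_sub (m : ℕ) (v w : H) : trunc m (v - w) = trunc m v - trunc m w := by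
  ext q; simp only [trunc_apply, lp.coeFn_sub, Pi.sub_apply]; split_ifs <;> simp

lemma trunc_zero (m : ℕ) : trunc m 0 = 0 := by
  ext q; simp [trunc_apply]

lemma norm_trunc_le (m : ℕ) (v : H) : ‖trunc m v‖ ≤ ‖v‖ :=
  lp.norm_mono (by norm_num) fun q => by rw [trunc_apply]; split_ifs <;> simp

lemma trunc_trunc {m n : ℕ} (h : m ≤ n) (v : H) :
    trunc m (trunc n v) = trunc m v ∧ trunc n (trunc m v) = trunc m v := by
  constructor <;> ext q <;> simp only [trunc_apply] <;> split_ifs <;> first | rfl | omega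

lemma norm_trunc_le_of {m : ℕ} {v : H} {a : ℝ} (h : ∀ q < m, |v q| ≤ a) :
    ‖trunc m v‖ ≤ m * a := by
  refine (norm_sum_le _ _).trans ?_
  calc ∑ q ∈ Finset.range m, ‖(lp.single 2 q (v q) : H)‖ ≤ ∑ _q ∈ Finset.range m, a :=
        Finset.sum_le_sum fun q hq => by
          rw [lp.norm_single (by norm_num)]; exact h q (Finset.mem_range.1 hq)
    _ = m * a := by simp

lemma tendsto_trunc (v : H) : Tendsto (fun m => trunc m v) atTop (𝓝 v) :=
  (lp.hasSum_single (by norm_num) v).tendsto_sum_nat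

lemma inner_trunc (m : ℕ) (ξ v : H) : inner ℝ ξ (trunc m v) = inner ℝ (trunc m ξ) v := by
  rw [lp.inner_eq_tsum, lp.inner_eq_tsum]
  refine tsum_congr fun q => ?_
  simp only [trunc_apply]; split_ifs <;> simp

lemma abs_apply_le (v : H) (q : ℕ) : |v q| ≤ ‖v‖ := lp.norm_apply_le_norm (by norm_num) v q

/-- Configurations with heights. -/
def M : Type := {x : C₀(ℕ, H) × C₀(ℕ, ℝ) // ∀ j, ‖x.1 j‖ ≤ x.2 j}

instance : MetricSpace M := 
  inferInstanceAs (MetricSpace {x : C₀(ℕ, H) × C₀(ℕ, ℝ) // ∀ j, ‖x.1 j‖ ≤ x.2 j})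

namespace M

def u (x : M) (j : ℕ) : H := x.1.1 j
def σ (x : M) (j : ℕ) : ℝ := x.1.2 j

lemma norm_u_le (x : M) (j : ℕ) : ‖x.u j‖ ≤ x.σ j := x.2 j
lemma σ_nonneg (x : M) (j : ℕ) : 0 ≤ x.σ j := (norm_nonneg _).trans (x.norm_u_le j)
lemma σ_tendsto (x : M) : Tendsto x.σ atTop (𝓝 0) := c0_tendsto x.1.2
lemma u_tendsto (x : M) : Tendsto x.u atTop (𝓝 0) := c0_tendsto x.1.1

lemma dist_eq (x y : M) : dist x y = max ‖x.1.1 - y.1.1‖ ‖x.1.2 - y.1.2‖ := by
  change dist x.1 y.1 = _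
  rw [Prod.dist_eq, dist_eq_norm, dist_eq_norm]

lemma u_sub_le (x y : M) (j : ℕ) : ‖x.u j - y.u j‖ ≤ dist x y :=
  (c0_sub_le _ _ j).trans (by rw [dist_eq]; exact le_max_left _ _)

lemma σ_sub_le (x y : M) (j : ℕ) : |x.σ j - y.σ j| ≤ dist x y :=
  (c0_sub_le x.1.2 y.1.2 j).trans (by rw [dist_eq]; exact le_max_right _ _)

lemma dist_le {x y : M} {C : ℝ} (hC : 0 ≤ C) (h1 : ∀ j, ‖x.u j - y.u j‖ ≤ C)
    (h2 : ∀ j, |x.σ j - y.σ j| ≤ C) : dist x y ≤ C := by
  rw [dist_eq]; exact max_le (c0_norm_le hC h1) (c0_norm_le hC h2)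

lemma ext' {x y : M} (h1 : ∀ j, x.u j = y.u j) (h2 : ∀ j, x.σ j = y.σ j) : x = y :=
  dist_le_zero.1 (dist_le le_rfl (fun j => by simp [h1]) (fun j => by simp [h2]))

/-- Build a point from dominated sequences. -/
def mk' (a : ℕ → H) (s : ℕ → ℝ) (h : ∀ j, ‖a j‖ ≤ s j) (hs : Tendsto s atTop (𝓝 0)) : M :=
  ⟨(mk0 a (squeeze_zero_norm h hs), mk0 s hs), h⟩

@[simp] lemma mk'_u (a s h hs) (j : ℕ) : (mk' a s h hs).u j = a j := rfl
@[simp] lemma mk'_σ (a s h hs) (j : ℕ) : (mk' a s h hs).σ j = s j := rfl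

def zero : M := mk' (fun _ => 0) (fun _ => 0) (fun _ => by simp) tendsto_const_nhds

end M

/-- Projection to the first `m` coordinates. -/
def pr (m : ℕ) (x : M) : M :=
  M.mk' (fun j => if j < m then trunc m (x.u j) else 0) (fun j => if j < m then x.σ j else 0)
    (fun j => by split_ifs; exacts [(norm_trunc_le _ _).trans (x.norm_u_le j), by simp])
    (tendsto_const_nhds.congr' (by
      filter_upwards [eventually_ge_atTop m] with j hj; rw [if_neg (by omega)]))

/-- Killing one coordinate. -/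
def kap (i : ℕ) (x : M) : M :=
  M.mk' (fun j => if j = i then 0 else x.u j) (fun j => if j = i then 0 else x.σ j)
    (fun j => by split_ifs; exacts [by simp, x.norm_u_le j])
    (x.σ_tendsto.congr' (by
      filter_upwards [eventually_gt_atTop i] with j hj; rw [if_neg (by omega)]))

lemma pr_u (m : ℕ) (x : M) (j : ℕ) : (pr m x).u j = if j < m then trunc m (x.u j) else 0 := rfl
lemma pr_σ (m : ℕ) (x : M) (j : ℕ) : (pr m x).σ j = if j < m then x.σ j else 0 := rfl
lemma kap_u (i : ℕ) (x : M) (j : ℕ) : (kap i x).u j = if j = i then 0 else x.u j := rfl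
lemma kap_σ (i : ℕ) (x : M) (j : ℕ) : (kap i x).σ j = if j = i then 0 else x.σ j := rfl

lemma dist_pr_le (m : ℕ) (x y : M) : dist (pr m x) (pr m y) ≤ dist x y := by
  refine M.dist_le dist_nonneg (fun j => ?_) (fun j => ?_)
  · simp only [pr_u]; split_ifs
    · rw [← trunc_sub]; exact (norm_trunc_le _ _).trans (x.u_sub_le y j)
    · simp
  · simp only [pr_σ]; split_ifs
    · exact x.σ_sub_le y j
    · simp

lemma dist_kap_le (i : ℕ) (x y : M) : dist (kap i x) (kap i y) ≤ dist x y := by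
  refine M.dist_le dist_nonneg (fun j => ?_) (fun j => ?_)
  · simp only [kap_u]; split_ifs
    · simp
    · exact x.u_sub_le y j
  · simp only [kap_σ]; split_ifs
    · simp
    · exact x.σ_sub_le y j

lemma dist_kap_self (i : ℕ) (x : M) : dist x (kap i x) ≤ x.σ i := by
  refine M.dist_le (x.σ_nonneg i) (fun j => ?_) (fun j => ?_)
  · simp only [kap_u]; split_ifs with h
    · subst h; simpa using x.norm_u_le j
    · simpa using x.σ_nonneg i
  · simp only [kap_σ]; split_ifs with h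
    · subst h; simp [abs_of_nonneg (x.σ_nonneg j)]
    · simpa using x.σ_nonneg i

lemma pr_pr {m n : ℕ} (h : m ≤ n) (x : M) : pr m (pr n x) = pr m x ∧ pr n (pr m x) = pr m x := by
  constructor <;> refine M.ext' (fun j => ?_) (fun j => ?_) <;> simp only [pr_u, pr_σ] <;>
    split_ifs <;> first | rfl | omega | exact (trunc_trunc h _).1 | exact (trunc_trunc h _).2 |
      exact trunc_zero _

lemma pr_kap (m i : ℕ) (x : M) : pr m (kap i x) = kap i (pr m x) := by
  refine M.ext' (fun j => ?_) (fun j => ?_) <;> simp only [pr_u, pr_σ, kap_u, kap_σ] <;>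
    split_ifs <;> first | rfl | exact trunc_zero _

/-- The pseudo-distance seen by the first `m` coordinates. -/
def dm (m : ℕ) (x y : M) : ℝ := dist (pr m x) (pr m y)

lemma dm_nonneg (m : ℕ) (x y : M) : 0 ≤ dm m x y := dist_nonneg
lemma dm_le (m : ℕ) (x y : M) : dm m x y ≤ dist x y := dist_pr_le m x y
lemma dm_comm (m : ℕ) (x y : M) : dm m x y = dm m y x := dist_comm _ _
lemma dm_tri (m : ℕ) (x y z : M) : dm m x z ≤ dm m x y + dm m y z := dist_triangle _ _ _
lemma dm_mono {m n : ℕ} (h : m ≤ n) (x y : M) : dm m x y ≤ dm n x y := by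
  unfold dm
  rw [← (pr_pr h x).1, ← (pr_pr h y).1]; exact dist_pr_le _ _ _
lemma dm_pr {m n : ℕ} (h : m ≤ n) (x y : M) : dm m (pr n x) y = dm m x y := by
  unfold dm; rw [(pr_pr h x).1]
lemma abs_dm_sub (m : ℕ) (x y c : M) : |dm m x c - dm m y c| ≤ dist x y :=
  (abs_dist_sub_le _ _ _).trans (dist_pr_le m x y)

/-- Scalar coordinates. -/
def lam (p : ℕ × ℕ) (x : M) : ℝ := if p.2 = 0 then x.σ p.1 else x.u p.1 (p.2 - 1)

lemma lam_sub_le (p : ℕ × ℕ) (x y : M) : |lam p x - lam p y| ≤ dist x y := by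
  unfold lam; split_ifs
  · exact x.σ_sub_le y _
  · exact (abs_apply_le (x.u p.1 - y.u p.1) _).trans (x.u_sub_le y _)

def S (m : ℕ) : Finset (ℕ × ℕ) := Finset.range m ×ˢ Finset.range (m + 1)

lemma lam_pr {m : ℕ} {p : ℕ × ℕ} (hp : p ∈ S m) (x : M) : lam p (pr m x) = lam p x := by
  simp only [S, Finset.mem_product, Finset.mem_range] at hp
  unfold lam; split_ifs with h
  · simp [pr_σ, hp.1]
  · simp only [pr_u, hp.1, if_true, trunc_apply]; rw [if_pos (by omega)]

lemma lam_sub_le_dm {m : ℕ} {p : ℕ × ℕ} (hp : p ∈ S m) (x y : M) :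
    |lam p x - lam p y| ≤ dm m x y := by
  rw [← lam_pr hp x, ← lam_pr hp y]; exact lam_sub_le _ _ _

lemma dm_le_of {m : ℕ} {x y : M} {a : ℝ} (ha : 0 ≤ a)
    (h : ∀ p ∈ S m, |lam p x - lam p y| ≤ a) : dm m x y ≤ (m + 1) * a := by
  refine M.dist_le (by positivity) (fun j => ?_) (fun j => ?_)
  · simp only [pr_u]; split_ifs with hj
    · rw [← trunc_sub]
      refine (norm_trunc_le_of (a := a) fun q hq => ?_).trans (by nlinarith)
      have := h (j, q + 1) (by simp [S, hj, hq])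
      simpa [lam] using this
    · simp; positivity
  · simp only [pr_σ]; split_ifs with hj
    · have := h (j, 0) (by simp [S, hj])
      simp only [lam, if_true] at this
      nlinarith
    · simp; positivity

def InCell (m : ℕ) (R : ℝ) (γ : S m → ℤ) (x : M) : Prop := ∀ p : S m, |lam p x / R - γ p| ≤ 1

open Classical in
/-- A representative of a cell. -/
def rep (m : ℕ) (R : ℝ) (γ : S m → ℤ) : M :=
  if h : ∃ x, InCell m R γ x then h.choose else M.zero

/-- The set of centres. -/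
def Cen (m : ℕ) (R : ℝ) : Set M := range (rep m R)

/-- Rounding with shift `ω`. -/
def rnd (m : ℕ) (R ω : ℝ) (x : M) : S m → ℤ := fun p => ⌊lam p x / R + ω⌋

lemma inCell_rnd (m : ℕ) (R : ℝ) {ω : ℝ} (h0 : 0 ≤ ω) (h1 : ω ≤ 1) (x : M) :
    InCell m R (rnd m R ω x) x := fun p => by
  have h2 := Int.floor_le (lam p x / R + ω)
  have h3 := Int.lt_floor_add_one (lam p x / R + ω)
  unfold rnd; rw [abs_le]; constructor <;> linarith

lemma dm_rep {m : ℕ} {R : ℝ} (hR : 0 < R) {γ : S m → ℤ} {x : M} (hx : InCell m R γ x) :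
    dm m x (rep m R γ) ≤ (m + 1) * (2 * R) := by
  have h : ∃ x, InCell m R γ x := ⟨x, hx⟩
  have h2 : InCell m R γ (rep m R γ) := by rw [rep, dif_pos h]; exact h.choose_spec
  refine dm_le_of (by positivity) fun p hp => ?_
  have h3 := abs_le.1 (hx ⟨p, hp⟩)
  have h4 := abs_le.1 (h2 ⟨p, hp⟩)
  have : lam p x - lam p (rep m R γ) = R * (lam p x / R - lam p (rep m R γ) / R) := by field_simp
  rw [this, abs_mul, abs_of_pos hR]
  have : |lam p x / R - lam p (rep m R γ) / R| ≤ 2 := by rw [abs_le]; constructor <;> linarith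
  nlinarith

lemma exists_cen (m : ℕ) {R : ℝ} (hR : 0 < R) (x : M) :
    ∃ c ∈ Cen m R, dm m x c ≤ (m + 1) * (2 * R) :=
  ⟨_, ⟨rnd m R 0 x, rfl⟩, dm_rep hR (inCell_rnd m R le_rfl zero_le_one x)⟩

lemma finite_cen (m : ℕ) {R : ℝ} (hR : 0 < R) (y : M) (ρ : ℝ) :
    {c ∈ Cen m R | dm m c y ≤ ρ}.Finite := by
  have hf : (Set.pi univ fun p : S m =>
      Icc ⌊lam p y / R - ρ / R - 1⌋ ⌈lam p y / R + ρ / R + 1⌉).Finite :=
    Finite.pi fun p => finite_Icc _ _
  refine ((hf.image (rep m R)).insert M.zero).subset ?_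
  rintro _ ⟨⟨γ, rfl⟩, hc⟩
  by_cases h : ∃ x, InCell m R γ x
  · refine Or.inr ⟨γ, fun p _ => ?_, rfl⟩
    have h2 : InCell m R γ (rep m R γ) := by rw [rep, dif_pos h]; exact h.choose_spec
    have h3 := abs_le.1 (h2 p)
    have h4 := abs_le.1 ((lam_sub_le_dm p.2 (rep m R γ) y).trans hc)
    have h5 : lam p (rep m R γ) / R ≤ lam p y / R + ρ / R := by
      rw [← add_div]; exact div_le_div_of_nonneg_right (by linarith) hR.le
    have h6 : lam p y / R - ρ / R ≤ lam p (rep m R γ) / R := by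
      rw [← sub_div]; exact div_le_div_of_nonneg_right (by linarith) hR.le
    constructor
    · rw [Int.floor_le_iff]; linarith
    · rw [Int.le_ceil_iff]; linarith
  · left; rw [rep, dif_neg h]

end Crest.Agent.H1Lip
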